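import Mathlib
import Crest.Agent.Helper77.S0076.PetalBound
import Crest.Agent.Helper13.S0076.Rigid

/-!
# Disjoint petals over a base of excess `≥ 0` (conditional infrastructure, row 55)

Nothing here is imported by any `SNNNN.lean`; nothing here proves a spread bound.

`petal_factorial_le_of_base`: let `Y₀` be a vertex set of the host with `n^{|Y₀|} p^{e(Y₀)} ≤ 1`
(excess `≥ 0`; e.g. the image of a `Good` rigid part, `RigidPart.lean`).  Let `g (i, ·)`,
`i : Fin M`, be `M` pairwise disjoint petals outside `Y₀` and `Ap ⊆ E₀` a petal-invariant set of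
at least `M * m` host slots, each meeting a petal and supported on `Y₀ ∪ range g` (`m` = number
of edges of one petal, including its edges to the kernel).  Then

  `M! ≤ 2 (n^{|D|} p^m)^M`,

i.e. over a base of excess `≥ 0` the kernel costs nothing: at most `≈ e · n^{|D|} p^m` disjoint
petals.  (Glue of helper77's `petal_factorial_le_of_stab` with the base condition.)
-/

set_option autoImplicit false

namespace Crest.Agent.Helper31.S0076

open Finset Crest.CombinatoricsR.RandomGraph Crest.Agent.Helper52.PP Crest.Agent.Helper84.S0076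
open Crest.Agent.Helper13.S0076 (inducedSlots mem_inducedSlots inducedSlots_subset)
open Crest.Agent.Helper77.S0076 (petal_factorial_le_of_stab)

theorem petal_factorial_le_of_base {n M : ℕ} {D : Type} [Fintype D] [Nonempty D]
    (E₀ : Finset (EdgeSlot n)) (p : ℝ) (hp0 : 0 ≤ p) (hp1 : p ≤ 1)
    (hstab : ∀ A ⊆ E₀, (((Finset.univ.filter (fun σ : Equiv.Perm (Fin n) =>
        A.map (slotPerm σ).toEmbedding = A)).card : ℕ) : ℝ)
          ≤ 2 * (n.factorial : ℝ) * p ^ A.card)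
    (Y₀ : Finset (Fin n))
    (hbase : (n : ℝ) ^ Y₀.card * p ^ (inducedSlots E₀ Y₀).card ≤ 1)
    (g : Fin M × D → Fin n) (hg : Function.Injective g) (hY : ∀ q, g q ∉ Y₀)
    (Ap : Finset (EdgeSlot n)) (hAp : Ap ⊆ E₀)
    (hout : ∀ s ∈ Ap, ∃ q, g q ∈ s.1)
    (hsupp : ∀ v ∈ vset Ap, v ∈ Y₀ ∨ v ∈ Set.range g)
    (hinv : ∀ ρ : Equiv.Perm (Fin M), ∀ s ∈ Ap, slotPerm (petalPerm g hg ρ) s ∈ Ap)
    (m : ℕ) (hcard : M * m ≤ Ap.card) :
    (M.factorial : ℝ) ≤ 2 * ((n : ℝ) ^ Fintype.card D * p ^ m) ^ M := by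
  classical
  have hdisj : Disjoint (inducedSlots E₀ Y₀) Ap := by
    rw [Finset.disjoint_left]
    intro s hs hs'
    obtain ⟨q, hq⟩ := hout s hs'
    exact hY q (((mem_inducedSlots E₀ Y₀ s).1 hs).2 _ hq)
  have hAcard : (inducedSlots E₀ Y₀ ∪ Ap).card = (inducedSlots E₀ Y₀).card + Ap.card :=
    Finset.card_union_of_disjoint hdisj
  have hAE : inducedSlots E₀ Y₀ ∪ Ap ⊆ E₀ :=
    Finset.union_subset (inducedSlots_subset E₀ Y₀) hAp
  have hsuppA : ∀ v ∈ vset (inducedSlots E₀ Y₀ ∪ Ap), v ∈ Y₀ ∨ v ∈ Set.range g := by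
    intro v hv
    obtain ⟨s, hs, hvs⟩ := (mem_vset _ v).1 hv
    rcases Finset.mem_union.1 hs with h | h
    · exact Or.inl (((mem_inducedSlots E₀ Y₀ s).1 h).2 v hvs)
    · exact hsupp v ((mem_vset Ap v).2 ⟨s, h, hvs⟩)
  have hinvA : ∀ ρ : Equiv.Perm (Fin M), ∀ s ∈ inducedSlots E₀ Y₀ ∪ Ap,
      slotPerm (petalPerm g hg ρ) s ∈ inducedSlots E₀ Y₀ ∪ Ap := by
    intro ρ s hs
    rcases Finset.mem_union.1 hs with h | h
    · -- slots inside `Y₀` are fixed
      have hfix : slotPerm (petalPerm g hg ρ) s = s := by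
        apply Subtype.ext
        rw [slotPerm_val]
        obtain ⟨x, y, hxy⟩ : ∃ x y : Fin n, s.1 = s(x, y) :=
          Sym2.ind (fun a b => ⟨a, b, rfl⟩) s.1
        have hx : x ∈ Y₀ :=
          ((mem_inducedSlots E₀ Y₀ s).1 h).2 x (by rw [hxy]; exact Sym2.mem_mk_left x y)
        have hy : y ∈ Y₀ :=
          ((mem_inducedSlots E₀ Y₀ s).1 h).2 y (by rw [hxy]; exact Sym2.mem_mk_right x y)
        have hx' : petalPerm g hg ρ x = x :=
          petalPerm_apply_of_not_range g hg ρ x (by rintro ⟨q, rfl⟩; exact hY q hx)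
        have hy' : petalPerm g hg ρ y = y :=
          petalPerm_apply_of_not_range g hg ρ y (by rintro ⟨q, rfl⟩; exact hY q hy)
        rw [hxy, Sym2.map_mk, hx', hy']
      rw [hfix]; exact hs
    · exact Finset.mem_union_right _ (hinv ρ s h)
  have h1 := petal_factorial_le_of_stab E₀ p hp0 hstab g hg Y₀ hY (inducedSlots E₀ Y₀ ∪ Ap) hAE
    hsuppA hinvA
  -- numeric part
  have h2 : (n.descFactorial (Y₀.card + M * Fintype.card D) : ℝ)
      ≤ (n : ℝ) ^ (Y₀.card + M * Fintype.card D) := by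
    exact_mod_cast Nat.descFactorial_le_pow n _
  have h3 : p ^ (inducedSlots E₀ Y₀ ∪ Ap).card ≤ p ^ ((inducedSlots E₀ Y₀).card + M * m) := by
    apply pow_le_pow_of_le_one hp0 hp1
    rw [hAcard]; omega
  have h4 : (n : ℝ) ^ (Y₀.card + M * Fintype.card D) * p ^ ((inducedSlots E₀ Y₀).card + M * m)
      = ((n : ℝ) ^ Y₀.card * p ^ (inducedSlots E₀ Y₀).card)
        * ((n : ℝ) ^ Fintype.card D * p ^ m) ^ M := by
    rw [pow_add, pow_add, mul_pow, ← pow_mul, ← pow_mul, mul_comm (Fintype.card D) M,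
      mul_comm m M]
    ring
  have hpet : (0 : ℝ) ≤ ((n : ℝ) ^ Fintype.card D * p ^ m) ^ M := by positivity
  calc (M.factorial : ℝ)
      ≤ 2 * (n.descFactorial (Y₀.card + M * Fintype.card D) : ℝ)
          * p ^ (inducedSlots E₀ Y₀ ∪ Ap).card := h1
    _ ≤ 2 * (n : ℝ) ^ (Y₀.card + M * Fintype.card D)
          * p ^ ((inducedSlots E₀ Y₀).card + M * m) :=
        mul_le_mul (mul_le_mul_of_nonneg_left h2 (by norm_num)) h3 (pow_nonneg hp0 _)
          (by positivity)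
    _ = 2 * (((n : ℝ) ^ Y₀.card * p ^ (inducedSlots E₀ Y₀).card)
          * ((n : ℝ) ^ Fintype.card D * p ^ m) ^ M) := by rw [mul_assoc, h4]
    _ ≤ 2 * (1 * ((n : ℝ) ^ Fintype.card D * p ^ m) ^ M) :=
        mul_le_mul_of_nonneg_left (mul_le_mul_of_nonneg_right hbase hpet) (by norm_num)
    _ = 2 * ((n : ℝ) ^ Fintype.card D * p ^ m) ^ M := by rw [one_mul]

/-- **Pendant vertices over a base of excess `≥ 0`.**  If `N` is a set of common neighbours,
outside `Y₀`, of a subset `B` of `Y₀`, then `|N|! ≤ 2 (n p^{|B|})^{|N|}`: the codegree of `B`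
outside the base is at most `≈ e · n p^{|B|}`, with no `ln n`. -/
theorem pendant_factorial_le_of_base {n : ℕ}
    (E₀ : Finset (EdgeSlot n)) (p : ℝ) (hp0 : 0 ≤ p) (hp1 : p ≤ 1)
    (hstab : ∀ A ⊆ E₀, (((Finset.univ.filter (fun σ : Equiv.Perm (Fin n) =>
        A.map (slotPerm σ).toEmbedding = A)).card : ℕ) : ℝ)
          ≤ 2 * (n.factorial : ℝ) * p ^ A.card)
    (Y₀ : Finset (Fin n))
    (hbase : (n : ℝ) ^ Y₀.card * p ^ (inducedSlots E₀ Y₀).card ≤ 1)
    (B : Finset (Fin n)) (hB : B ⊆ Y₀) (N : Finset (Fin n)) (hN : Disjoint N Y₀)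
    (hadj : ∀ b ∈ B, ∀ w ∈ N, ∃ s ∈ E₀, s.1 = s(b, w)) :
    (N.card.factorial : ℝ) ≤ 2 * ((n : ℝ) * p ^ B.card) ^ N.card := by
  classical
  -- enumeration of `N`
  let e : Fin N.card ≃ {x // x ∈ N} := N.equivFin.symm
  let g : Fin N.card × Unit → Fin n := fun q => (e q.1).1
  have hg : Function.Injective g := by
    intro q q' h
    have h1 : e q.1 = e q'.1 := Subtype.ext h
    exact Prod.ext (e.injective h1) (Subsingleton.elim _ _)
  have hgN : ∀ q, g q ∈ N := fun q => (e q.1).2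
  have hY : ∀ q, g q ∉ Y₀ := fun q h => Finset.disjoint_left.1 hN (hgN q) h
  have hrange : ∀ w ∈ N, ∃ q, g q = w := by
    intro w hw
    refine ⟨(e.symm ⟨w, hw⟩, ()), ?_⟩
    show (e (e.symm ⟨w, hw⟩)).1 = w
    rw [Equiv.apply_symm_apply]
  have hApE : E₀.filter (fun s => ∃ b ∈ B, ∃ w ∈ N, s.1 = s(b, w)) ⊆ E₀ :=
    Finset.filter_subset _ _
  have hout : ∀ s ∈ E₀.filter (fun s => ∃ b ∈ B, ∃ w ∈ N, s.1 = s(b, w)),
      ∃ q, g q ∈ s.1 := by
    intro s hs
    obtain ⟨-, b, hb, w, hw, hsw⟩ := Finset.mem_filter.1 hs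
    obtain ⟨q, hq⟩ := hrange w hw
    exact ⟨q, by rw [hq, hsw]; exact Sym2.mem_mk_right b w⟩
  have hsupp : ∀ v ∈ vset (E₀.filter (fun s => ∃ b ∈ B, ∃ w ∈ N, s.1 = s(b, w))),
      v ∈ Y₀ ∨ v ∈ Set.range g := by
    intro v hv
    obtain ⟨s, hs, hvs⟩ := (mem_vset _ v).1 hv
    obtain ⟨-, b, hb, w, hw, hsw⟩ := Finset.mem_filter.1 hs
    rw [hsw, Sym2.mem_iff] at hvs
    rcases hvs with rfl | rfl
    · exact Or.inl (hB hb)
    · exact Or.inr (hrange v hw)
  have hinv : ∀ ρ : Equiv.Perm (Fin N.card),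
      ∀ s ∈ E₀.filter (fun s => ∃ b ∈ B, ∃ w ∈ N, s.1 = s(b, w)),
      slotPerm (petalPerm g hg ρ) s ∈ E₀.filter (fun s => ∃ b ∈ B, ∃ w ∈ N, s.1 = s(b, w)) := by
    intro ρ s hs
    obtain ⟨-, b, hb, w, hw, hsw⟩ := Finset.mem_filter.1 hs
    obtain ⟨q, hq⟩ := hrange w hw
    have hb' : petalPerm g hg ρ b = b :=
      petalPerm_apply_of_not_range g hg ρ b (by rintro ⟨q', rfl⟩; exact hY q' (hB hb))
    have hw' : petalPerm g hg ρ w = g (ρ q.1, q.2) := by
      rw [← hq]; exact petalPerm_apply g hg ρ q.1 q.2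
    obtain ⟨s', hs', hs'val⟩ := hadj b hb (g (ρ q.1, q.2)) (hgN _)
    have heq : slotPerm (petalPerm g hg ρ) s = s' := by
      apply Subtype.ext
      rw [slotPerm_val, hsw, Sym2.map_mk, hb', hw', hs'val]
    rw [heq]
    exact Finset.mem_filter.2 ⟨hs', b, hb, _, hgN _, hs'val⟩
  have hcard : N.card * B.card
      ≤ (E₀.filter (fun s => ∃ b ∈ B, ∃ w ∈ N, s.1 = s(b, w))).card := by
    have h1 : (N ×ˢ B).card
        ≤ ((E₀.filter (fun s => ∃ b ∈ B, ∃ w ∈ N, s.1 = s(b, w))).image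
            (fun s : EdgeSlot n => s.1)).card := by
      apply Finset.card_le_card_of_injOn (fun q : Fin n × Fin n => s(q.2, q.1))
      · intro q hq
        rw [Finset.mem_coe, Finset.mem_product] at hq
        obtain ⟨s, hs, hsval⟩ := hadj q.2 hq.2 q.1 hq.1
        exact Finset.mem_coe.2 (Finset.mem_image.2
          ⟨s, Finset.mem_filter.2 ⟨hs, q.2, hq.2, q.1, hq.1, hsval⟩, hsval⟩)
      · intro q hq q' hq' h
        rw [Finset.mem_coe, Finset.mem_product] at hq hq'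
        have h' : s(q.2, q.1) = s(q'.2, q'.1) := h
        rw [Sym2.eq_iff] at h'
        rcases h' with ⟨h1, h2⟩ | ⟨h1, h2⟩
        · exact Prod.ext h2 h1
        · exact absurd (hB hq.2)
            (by rw [h1]; exact fun h => Finset.disjoint_left.1 hN hq'.1 h)
    rw [Finset.card_product] at h1
    exact h1.trans Finset.card_image_le
  have h := petal_factorial_le_of_base E₀ p hp0 hp1 hstab Y₀ hbase g hg hY _ hApE hout hsupp hinv
    B.card hcard
  rw [Fintype.card_unit, pow_one] at h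
  exact h

end Crest.Agent.Helper31.S0076
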