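import Mathlib

/-!
# Abstract core of the "tight/rigid" counting theorems (helper20's Theorems B and B'), conditional infrastructure

Nothing here is imported by any `SNNNN.lean`; it is un-imported insurance for row 55 (S0076).
Paper source: `notes/s0076_helper20.md` (Theorem B, facts (F3), (F4), CLAIM; Theorem B').

* `dIn G X` counts ordered adjacent pairs inside `X` (so `dIn G X = 2 e(G[X])`, `two_dvd_dIn`);
* `lev a b G X = b * dIn G X - 2 * a * |X|` is TWICE the level `b e(X) - a |X|` of the note.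

Main results.

* `agree_on_top` (fact (F4)): inside a host `M` in which every set between `Y₀` and `M` has level
  `≤ c`, two induced embeddings that agree on the base `A` agree on every part `S ⊇ A` of the
  pattern of level `c`, provided the sets of top level are rigid relative to `Y₀`.
* `card_copiesRel_le` (CLAIM): if all levels between `Y₀` and `M` are `≤ lev Q A + 2 k`, there are
  at most `|M \ Y₀| ^ k` induced embeddings into `M` extending the base embedding.
* `card_hom_extensions_le` (Theorem B'): the same for all injective homomorphisms, if `K < b`.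
* `card_hom_embeddings_le` (Theorem B): the case of an empty base.
-/

namespace Crest.Agent.Helper31.S0076

open Finset
open scoped Classical

variable {V U : Type} [Fintype V] [Fintype U]

/-- number of ordered adjacent pairs inside `X` -/
noncomputable def dIn (G : SimpleGraph V) (X : Finset V) : ℕ :=
  ((X ×ˢ X).filter (fun q : V × V => G.Adj q.1 q.2)).card

theorem dIn_empty (G : SimpleGraph V) : dIn G ∅ = 0 := by
  simp [dIn]

theorem two_dvd_dIn (G : SimpleGraph V) (X : Finset V) : 2 ∣ dIn G X := by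
  unfold dIn
  have h : ∑ _q ∈ (X ×ˢ X).filter (fun q : V × V => G.Adj q.1 q.2), (1 : ZMod 2) = 0 := by
    refine Finset.sum_involution (fun q _ => (q.2, q.1)) ?_ ?_ ?_ ?_
    · intro q _
      show (1 : ZMod 2) + 1 = 0
      decide
    · intro q hq _ h
      have h1 : q.2 = q.1 := congrArg Prod.fst h
      have h2 := (mem_filter.1 hq).2
      rw [h1] at h2
      exact G.irrefl h2
    · intro q hq
      simp only [mem_filter, mem_product] at hq ⊢
      exact ⟨⟨hq.1.2, hq.1.1⟩, hq.2.symm⟩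
    · intro q _
      rfl
  rw [sum_const, nsmul_eq_mul, mul_one] at h
  exact (ZMod.natCast_eq_zero_iff _ 2).1 h

theorem dIn_supermod (G : SimpleGraph V) (X Y : Finset V) :
    dIn G X + dIn G Y ≤ dIn G (X ∪ Y) + dIn G (X ∩ Y) := by
  unfold dIn
  rw [← card_union_add_card_inter]
  apply add_le_add
  · apply card_le_card
    intro q hq
    simp only [mem_union, mem_filter, mem_product] at hq ⊢
    rcases hq with hq | hq
    · exact ⟨⟨Or.inl hq.1.1, Or.inl hq.1.2⟩, hq.2⟩
    · exact ⟨⟨Or.inr hq.1.1, Or.inr hq.1.2⟩, hq.2⟩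
  · apply card_le_card
    intro q hq
    simp only [mem_inter, mem_filter, mem_product] at hq ⊢
    exact ⟨⟨⟨hq.1.1.1, hq.2.1.1⟩, ⟨hq.1.1.2, hq.2.1.2⟩⟩, hq.1.2⟩

theorem dIn_supermod_cross (G : SimpleGraph V) (X Y : Finset V) {x y : V}
    (hx : x ∈ X) (hxY : x ∉ Y) (hy : y ∈ Y) (hyX : y ∉ X) (hxy : G.Adj x y) :
    dIn G X + dIn G Y + 1 ≤ dIn G (X ∪ Y) + dIn G (X ∩ Y) := by
  unfold dIn
  rw [← card_union_add_card_inter]
  have h1 : (x, y) ∉ (X ×ˢ X).filter (fun q : V × V => G.Adj q.1 q.2) ∪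
      (Y ×ˢ Y).filter (fun q : V × V => G.Adj q.1 q.2) := by
    simp only [mem_union, mem_filter, mem_product, not_or]
    exact ⟨fun h => hyX h.1.2, fun h => hxY h.1.1⟩
  have h2 : insert (x, y) ((X ×ˢ X).filter (fun q : V × V => G.Adj q.1 q.2) ∪
      (Y ×ˢ Y).filter (fun q : V × V => G.Adj q.1 q.2)) ⊆
      ((X ∪ Y) ×ˢ (X ∪ Y)).filter (fun q : V × V => G.Adj q.1 q.2) := by
    intro q hq
    simp only [mem_insert, mem_union, mem_filter, mem_product] at hq ⊢
    rcases hq with rfl | hq | hq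
    · exact ⟨⟨Or.inl hx, Or.inr hy⟩, hxy⟩
    · exact ⟨⟨Or.inl hq.1.1, Or.inl hq.1.2⟩, hq.2⟩
    · exact ⟨⟨Or.inr hq.1.1, Or.inr hq.1.2⟩, hq.2⟩
  have h3 := card_le_card h2
  rw [card_insert_of_notMem h1] at h3
  have h4 : ((X ×ˢ X).filter (fun q : V × V => G.Adj q.1 q.2) ∩
      (Y ×ˢ Y).filter (fun q : V × V => G.Adj q.1 q.2)).card ≤
      (((X ∩ Y) ×ˢ (X ∩ Y)).filter (fun q : V × V => G.Adj q.1 q.2)).card := by
    apply card_le_card
    intro q hq
    simp only [mem_inter, mem_filter, mem_product] at hq ⊢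
    exact ⟨⟨⟨hq.1.1.1, hq.2.1.1⟩, ⟨hq.1.1.2, hq.2.1.2⟩⟩, hq.1.2⟩
  omega

/-- an induced embedding preserves `dIn` -/
theorem dIn_map {Q : SimpleGraph U} {G : SimpleGraph V} (φ : U ↪ V)
    (hφ : ∀ u v, Q.Adj u v ↔ G.Adj (φ u) (φ v)) (S : Finset U) :
    dIn G (S.map φ) = dIn Q S := by
  unfold dIn
  symm
  apply card_bij (fun q _ => (φ q.1, φ q.2))
  · intro q hq
    simp only [mem_filter, mem_product, mem_map'] at hq ⊢
    exact ⟨hq.1, (hφ _ _).1 hq.2⟩
  · intro q1 _ q2 _ h
    simp only [Prod.mk.injEq, EmbeddingLike.apply_eq_iff_eq] at h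
    exact Prod.ext h.1 h.2
  · intro q hq
    simp only [mem_filter, mem_product, mem_map] at hq
    obtain ⟨⟨⟨u, hu, hu'⟩, ⟨v, hv, hv'⟩⟩, hadj⟩ := hq
    refine ⟨(u, v), ?_, ?_⟩
    · simp only [mem_filter, mem_product]
      refine ⟨⟨hu, hv⟩, ?_⟩
      rw [hφ, hu', hv']; exact hadj
    · exact Prod.ext hu' hv'

/-- the (doubled) level of a vertex set: `2 * (b * e(X) - a * |X|)` -/
noncomputable def lev (a b : ℤ) (G : SimpleGraph V) (X : Finset V) : ℤ :=
  b * (dIn G X : ℤ) - 2 * a * (X.card : ℤ)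

theorem lev_empty (a b : ℤ) (G : SimpleGraph V) : lev a b G ∅ = 0 := by
  simp [lev, dIn_empty]

theorem two_dvd_lev (a b : ℤ) (G : SimpleGraph V) (X : Finset V) : (2 : ℤ) ∣ lev a b G X := by
  unfold lev
  obtain ⟨m, hm⟩ := two_dvd_dIn G X
  exact ⟨b * m - a * X.card, by rw [hm]; push_cast; ring⟩

theorem lev_map {a b : ℤ} {Q : SimpleGraph U} {G : SimpleGraph V} (φ : U ↪ V)
    (hφ : ∀ u v, Q.Adj u v ↔ G.Adj (φ u) (φ v)) (S : Finset U) :
    lev a b G (S.map φ) = lev a b Q S := by
  unfold lev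
  rw [dIn_map φ hφ, card_map]

theorem lev_supermod {a b : ℤ} (hb : 0 ≤ b) (G : SimpleGraph V) (X Y : Finset V) :
    lev a b G X + lev a b G Y ≤ lev a b G (X ∪ Y) + lev a b G (X ∩ Y) := by
  unfold lev
  have h1 := dIn_supermod G X Y
  have h2 := card_union_add_card_inter X Y
  have h1' : ((dIn G X : ℤ) + dIn G Y) ≤ (dIn G (X ∪ Y) : ℤ) + dIn G (X ∩ Y) := by
    exact_mod_cast h1
  have h2' : ((X ∪ Y).card : ℤ) + (X ∩ Y).card = X.card + Y.card := by exact_mod_cast h2
  have h3 : 2 * a * (((X ∪ Y).card : ℤ) + (X ∩ Y).card) = 2 * a * (X.card + Y.card) := by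
    rw [h2']
  nlinarith [mul_le_mul_of_nonneg_left h1' hb]

theorem lev_supermod_cross {a b : ℤ} (hb : 0 ≤ b) (G : SimpleGraph V) (X Y : Finset V) {x y : V}
    (hx : x ∈ X) (hxY : x ∉ Y) (hy : y ∈ Y) (hyX : y ∉ X) (hxy : G.Adj x y) :
    lev a b G X + lev a b G Y + b ≤ lev a b G (X ∪ Y) + lev a b G (X ∩ Y) := by
  unfold lev
  have h1 := dIn_supermod_cross G X Y hx hxY hy hyX hxy
  have h2 := card_union_add_card_inter X Y
  have h1' : ((dIn G X : ℤ) + dIn G Y) + 1 ≤ (dIn G (X ∪ Y) : ℤ) + dIn G (X ∩ Y) := by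
    exact_mod_cast h1
  have h2' : ((X ∪ Y).card : ℤ) + (X ∩ Y).card = X.card + Y.card := by exact_mod_cast h2
  have h3 : 2 * a * (((X ∪ Y).card : ℤ) + (X ∩ Y).card) = 2 * a * (X.card + Y.card) := by
    rw [h2']
  nlinarith [mul_le_mul_of_nonneg_left h1' hb]

/-- `X` is rigid in `G` relative to `Y₀`: the only injective adjacency-preserving self-map of `X`
fixing `Y₀` pointwise is the identity. -/
def RigidRel (G : SimpleGraph V) (Y₀ X : Finset V) : Prop :=
  ∀ π : V → V, (∀ x ∈ Y₀, π x = x) → (∀ x ∈ X, π x ∈ X) → Set.InjOn π (X : Set V) →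
    (∀ x ∈ X, ∀ y ∈ X, G.Adj x y → G.Adj (π x) (π y)) → ∀ x ∈ X, π x = x

/-- `X` is rigid in `G`: the only injective adjacency-preserving self-map of `X` is the identity -/
def Rigid (G : SimpleGraph V) (X : Finset V) : Prop :=
  ∀ π : V → V, (∀ x ∈ X, π x ∈ X) → Set.InjOn π (X : Set V) →
    (∀ x ∈ X, ∀ y ∈ X, G.Adj x y → G.Adj (π x) (π y)) → ∀ x ∈ X, π x = x

theorem Rigid.rigidRel {G : SimpleGraph V} {X : Finset V} (h : Rigid G X) (Y₀ : Finset V) :
    RigidRel G Y₀ X := fun π _ h1 h2 h3 => h π h1 h2 h3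

/-- **Fact (F4): the top level is unique.**  Inside a host `M` in which every set between `Y₀` and
`M` has level `≤ c`, two induced embeddings agreeing on the base `A` (mapped onto `Y₀`) agree on
every part `S ⊇ A` of the pattern of level `c`. -/
theorem agree_on_top {a b : ℤ} (hb : 0 < b) {Q : SimpleGraph U} {G : SimpleGraph V}
    {M Y₀ : Finset V} {A : Finset U} {c : ℤ}
    (hM : ∀ X, Y₀ ⊆ X → X ⊆ M → lev a b G X ≤ c)
    (hrig : ∀ X : Finset V, Y₀ ⊂ X → lev a b G X = c →
      (∀ Y, Y₀ ⊆ Y → Y ⊆ X → lev a b G Y ≤ c) → RigidRel G Y₀ X)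
    (φ φ' : U ↪ V) (hφM : ∀ u, φ u ∈ M) (hφ'M : ∀ u, φ' u ∈ M)
    (hφ : ∀ u v, Q.Adj u v ↔ G.Adj (φ u) (φ v))
    (hφ' : ∀ u v, Q.Adj u v ↔ G.Adj (φ' u) (φ' v))
    (hφA : A.map φ = Y₀) (hAA : ∀ u ∈ A, φ u = φ' u) :
    ∀ (n : ℕ) (S : Finset U), S.card = n → A ⊆ S → lev a b Q S = c →
      ∀ u ∈ S, φ u = φ' u := by
  intro n
  induction n using Nat.strong_induction_on with
  | _ n ih =>
  intro S hSn hAS hS0 u hu
  by_cases huA : u ∈ A
  · exact hAA u huA
  have : Nonempty U := ⟨u⟩
  have hφ'A : A.map φ' = Y₀ := by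
    rw [← hφA]
    ext x
    simp only [mem_map]
    constructor
    · rintro ⟨w, hw, rfl⟩; exact ⟨w, hw, hAA w hw⟩
    · rintro ⟨w, hw, rfl⟩; exact ⟨w, hw, (hAA w hw).symm⟩
  have huY : φ u ∉ Y₀ := by
    rw [← hφA]
    intro h
    obtain ⟨w, hw, hw'⟩ := mem_map.1 h
    apply huA
    rw [← φ.injective hw']; exact hw
  have hYT' : Y₀ ⊆ S.map φ := by rw [← hφA]; exact map_subset_map.2 hAS
  have hYT'' : Y₀ ⊆ S.map φ' := by rw [← hφ'A]; exact map_subset_map.2 hAS
  have hT' : lev a b G (S.map φ) = c := by rw [lev_map φ hφ]; exact hS0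
  have hT'' : lev a b G (S.map φ') = c := by rw [lev_map φ' hφ']; exact hS0
  have hT'M : S.map φ ⊆ M := by
    intro x hx
    obtain ⟨v, _, rfl⟩ := mem_map.1 hx
    exact hφM v
  have hT''M : S.map φ' ⊆ M := by
    intro x hx
    obtain ⟨v, _, rfl⟩ := mem_map.1 hx
    exact hφ'M v
  have hUM : S.map φ ∪ S.map φ' ⊆ M := union_subset hT'M hT''M
  have hIM : S.map φ ∩ S.map φ' ⊆ M := inter_subset_left.trans hT'M
  have hYU : Y₀ ⊆ S.map φ ∪ S.map φ' := hYT'.trans subset_union_left
  have hYI : Y₀ ⊆ S.map φ ∩ S.map φ' := subset_inter hYT' hYT''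
  have hsm := lev_supermod (a := a) hb.le G (S.map φ) (S.map φ')
  have hUle := hM _ hYU hUM
  have hIle := hM _ hYI hIM
  have hU0 : lev a b G (S.map φ ∪ S.map φ') = c := by linarith
  have hI0 : lev a b G (S.map φ ∩ S.map φ') = c := by linarith
  have hnocross : ∀ x ∈ S.map φ, x ∉ S.map φ' → ∀ y ∈ S.map φ', y ∉ S.map φ → ¬ G.Adj x y := by
    intro x hx hx' y hy hy' hadj
    have := lev_supermod_cross (a := a) hb.le G (S.map φ) (S.map φ') hx hx' hy hy' hadj
    linarith
  have hψ : ∀ v, Function.invFun φ (φ v) = v := Function.leftInverse_invFun φ.injective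
  have hψ' : ∀ v, Function.invFun φ' (φ' v) = v := Function.leftInverse_invFun φ'.injective
  -- the set of `v ∈ S` whose `φ`-image lies in the other copy
  have hSW : (S.filter (fun v => φ v ∈ S.map φ')).map φ = S.map φ ∩ S.map φ' := by
    ext x
    simp only [mem_map, mem_filter, mem_inter]
    constructor
    · rintro ⟨v, ⟨hv, hv'⟩, rfl⟩
      exact ⟨⟨v, hv, rfl⟩, hv'⟩
    · rintro ⟨⟨v, hv, rfl⟩, hv'⟩
      exact ⟨v, ⟨hv, hv'⟩, rfl⟩
  have hSW0 : lev a b Q (S.filter (fun v => φ v ∈ S.map φ')) = c := by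
    rw [← lev_map (a := a) (b := b) φ hφ, hSW]; exact hI0
  have hASW : A ⊆ S.filter (fun v => φ v ∈ S.map φ') := by
    intro w hw
    refine mem_filter.2 ⟨hAS hw, ?_⟩
    rw [hAA w hw]; exact mem_map_of_mem φ' (hAS hw)
  by_cases hcase : S.filter (fun v => φ v ∈ S.map φ') = S
  · -- the two copies coincide as sets
    have hsub : S.map φ ⊆ S.map φ' := by
      intro x hx
      obtain ⟨v, hv, rfl⟩ := mem_map.1 hx
      rw [← hcase] at hv
      exact (mem_filter.1 hv).2
    have heq : S.map φ = S.map φ' :=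
      eq_of_subset_of_card_le hsub (by rw [card_map, card_map])
    have hr := hrig (S.map φ)
      (Finset.ssubset_def.2 ⟨hYT', fun h => huY (h (mem_map_of_mem φ hu))⟩) hT'
      (fun Y hY₀ hY => hM Y hY₀ (hY.trans hT'M))
    have := hr (fun x => φ' (Function.invFun φ x)) (by
        intro x hx
        rw [← hφA] at hx
        obtain ⟨w, hw, rfl⟩ := mem_map.1 hx
        simp only [hψ]
        exact (hAA w hw).symm) (by
        intro x hx
        obtain ⟨v, hv, rfl⟩ := mem_map.1 hx
        rw [hψ, heq]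
        exact mem_map_of_mem φ' hv) (by
        intro x hx y hy hxy
        obtain ⟨v, hv, rfl⟩ := mem_map.1 (mem_coe.1 hx)
        obtain ⟨w, hw, rfl⟩ := mem_map.1 (mem_coe.1 hy)
        simp only [hψ] at hxy
        rw [φ'.injective hxy]) (by
        intro x hx y hy hxy
        obtain ⟨v, hv, rfl⟩ := mem_map.1 hx
        obtain ⟨w, hw, rfl⟩ := mem_map.1 hy
        simp only [hψ]
        exact (hφ' v w).1 ((hφ v w).2 hxy)) (φ u) (mem_map_of_mem φ hu)
    simp only [hψ] at this
    exact this.symm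
  · -- the intersection is a proper top-level part: use the induction hypothesis
    have hlt : (S.filter (fun v => φ v ∈ S.map φ')).card < n := by
      rw [← hSn]
      exact card_lt_card ((filter_subset _ _).ssubset_of_ne hcase)
    have hI : ∀ v ∈ S, φ v ∈ S.map φ' → φ v = φ' v := fun v hv hv' =>
      ih _ hlt _ rfl hASW hSW0 v (mem_filter.2 ⟨hv, hv'⟩)
    let π : V → V := fun x =>
      if x ∈ S.map φ then φ' (Function.invFun φ x) else φ (Function.invFun φ' x)
    have hP1 : ∀ v ∈ S, π (φ v) = φ' v := by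
      intro v hv
      have : φ v ∈ S.map φ := mem_map_of_mem φ hv
      simp only [π, if_pos this, hψ]
    have hP2 : ∀ v, φ' v ∉ S.map φ → π (φ' v) = φ v := by
      intro v hv
      simp only [π, if_neg hv, hψ']
    have hform : ∀ x ∈ S.map φ ∪ S.map φ',
        (∃ v ∈ S, x = φ v) ∨ (∃ v ∈ S, x = φ' v ∧ φ' v ∉ S.map φ) := by
      intro x hx
      by_cases hx1 : x ∈ S.map φ
      · obtain ⟨v, hv, rfl⟩ := mem_map.1 hx1
        exact Or.inl ⟨v, hv, rfl⟩
      · rcases mem_union.1 hx with h | h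
        · exact absurd h hx1
        · obtain ⟨v, hv, rfl⟩ := mem_map.1 h
          exact Or.inr ⟨v, hv, rfl, hx1⟩
    have hcross : ∀ v ∈ S, ∀ w ∈ S, φ' w ∉ S.map φ → G.Adj (φ v) (φ' w) →
        G.Adj (φ' v) (φ w) := by
      intro v hv w hw hw' hadj
      by_cases hv' : φ v ∈ S.map φ'
      · have h1 := hI v hv hv'
        rw [h1] at hadj
        have h2 := (hφ v w).1 ((hφ' v w).2 hadj)
        rw [h1] at h2
        exact h2
      · exact absurd hadj
          (hnocross (φ v) (mem_map_of_mem φ hv) hv' (φ' w) (mem_map_of_mem φ' hw) hw')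
    have hr := hrig (S.map φ ∪ S.map φ')
      (Finset.ssubset_def.2
        ⟨hYU, fun h => huY (h (mem_union_left _ (mem_map_of_mem φ hu)))⟩) hU0
      (fun Y hY₀ hY => hM Y hY₀ (hY.trans hUM))
    have := hr π (by
        intro x hx
        rw [← hφA] at hx
        obtain ⟨w, hw, rfl⟩ := mem_map.1 hx
        rw [hP1 w (hAS hw)]
        exact (hAA w hw).symm) (by
        intro x hx
        rcases hform x hx with ⟨v, hv, rfl⟩ | ⟨v, hv, rfl, hv'⟩
        · rw [hP1 v hv]
          exact mem_union_right _ (mem_map_of_mem φ' hv)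
        · rw [hP2 v hv']
          exact mem_union_left _ (mem_map_of_mem φ hv)) (by
        intro x hx y hy hxy
        rcases hform x (mem_coe.1 hx) with ⟨v, hv, rfl⟩ | ⟨v, hv, rfl, hv'⟩
        · rcases hform y (mem_coe.1 hy) with ⟨w, hw, rfl⟩ | ⟨w, hw, rfl, hw'⟩
          · rw [hP1 v hv, hP1 w hw] at hxy
            rw [φ'.injective hxy]
          · rw [hP1 v hv, hP2 w hw'] at hxy
            -- `φ' v = φ w`, so `φ w` lies in the other copy, hence `φ w = φ' w`
            have h1 : φ w ∈ S.map φ' := by rw [← hxy]; exact mem_map_of_mem φ' hv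
            have h2 := hI w hw h1
            exact absurd (by rw [← h2]; exact mem_map_of_mem φ hw) hw'
        · rcases hform y (mem_coe.1 hy) with ⟨w, hw, rfl⟩ | ⟨w, hw, rfl, hw'⟩
          · rw [hP2 v hv', hP1 w hw] at hxy
            have h1 : φ v ∈ S.map φ' := by rw [hxy]; exact mem_map_of_mem φ' hw
            have h2 := hI v hv h1
            exact absurd (by rw [← h2]; exact mem_map_of_mem φ hv) hv'
          · rw [hP2 v hv', hP2 w hw'] at hxy
            rw [φ.injective hxy]) (by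
        intro x hx y hy hxy
        rcases hform x hx with ⟨v, hv, rfl⟩ | ⟨v, hv, rfl, hv'⟩
        · rcases hform y hy with ⟨w, hw, rfl⟩ | ⟨w, hw, rfl, hw'⟩
          · rw [hP1 v hv, hP1 w hw]
            exact (hφ' v w).1 ((hφ v w).2 hxy)
          · rw [hP1 v hv, hP2 w hw']
            exact hcross v hv w hw hw' hxy
        · rcases hform y hy with ⟨w, hw, rfl⟩ | ⟨w, hw, rfl, hw'⟩
          · rw [hP2 v hv', hP1 w hw]
            exact (hcross w hw v hv hv' hxy.symm).symm
          · rw [hP2 v hv', hP2 w hw']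
            exact (hφ v w).1 ((hφ' v w).2 hxy)) (φ u) (mem_union_left _ (mem_map_of_mem φ hu))
    rw [hP1 u hu] at this
    exact this.symm

/-- induced copies of `Q` in `G` lying inside `M` and extending `φ₀` on the base `A` -/
noncomputable def copiesRel (Q : SimpleGraph U) (G : SimpleGraph V) (A : Finset U) (φ₀ : U → V)
    (M : Finset V) : Finset (U ↪ V) :=
  univ.filter (fun φ : U ↪ V =>
    (∀ u, φ u ∈ M) ∧ (∀ u ∈ A, φ u = φ₀ u) ∧ ∀ u v, Q.Adj u v ↔ G.Adj (φ u) (φ v))

theorem mem_copiesRel {Q : SimpleGraph U} {G : SimpleGraph V} {A : Finset U} {φ₀ : U → V}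
    {M : Finset V} {φ : U ↪ V} :
    φ ∈ copiesRel Q G A φ₀ M ↔
      (∀ u, φ u ∈ M) ∧ (∀ u ∈ A, φ u = φ₀ u) ∧ ∀ u v, Q.Adj u v ↔ G.Adj (φ u) (φ v) := by
  simp [copiesRel]

theorem map_eq_image_of_agree {A : Finset U} {φ₀ : U → V} {φ : U ↪ V}
    (h : ∀ u ∈ A, φ u = φ₀ u) : A.map φ = A.image φ₀ := by
  ext x
  simp only [mem_map, mem_image]
  constructor
  · rintro ⟨w, hw, rfl⟩; exact ⟨w, hw, (h w hw).symm⟩
  · rintro ⟨w, hw, rfl⟩; exact ⟨w, hw, h w hw⟩

/-- **The counting claim** (relative form): if every set between the base image `Y₀ = φ₀(A)` and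
`M` has level at most `lev Q A + 2 k`, then `M` contains at most `|M \ Y₀| ^ k` induced copies of
`Q` extending `φ₀`. -/
theorem card_copiesRel_le {a b : ℤ} (hb : 0 < b) {Q : SimpleGraph U} {G : SimpleGraph V}
    {A : Finset U} (hA : A ≠ univ) (φ₀ : U → V)
    (hdens : lev a b Q univ = lev a b Q A)
    (hbal : ∀ S : Finset U, A ⊆ S → lev a b Q S ≤ lev a b Q A)
    (hrig : ∀ X : Finset V, A.image φ₀ ⊂ X → lev a b G X = lev a b Q A →
      (∀ Y, A.image φ₀ ⊆ Y → Y ⊆ X → lev a b G Y ≤ lev a b Q A) → RigidRel G (A.image φ₀) X) :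
    ∀ (k : ℕ) (M : Finset V),
      (∀ X, A.image φ₀ ⊆ X → X ⊆ M → lev a b G X ≤ lev a b Q A + 2 * (k : ℤ)) →
      (copiesRel Q G A φ₀ M).card ≤ (M \ A.image φ₀).card ^ k := by
  intro k
  induction k with
  | zero =>
    intro M hM
    rw [pow_zero]
    apply card_le_one.2
    intro φ hφ φ' hφ'
    rw [mem_copiesRel] at hφ hφ'
    have hM' : ∀ X, A.image φ₀ ⊆ X → X ⊆ M → lev a b G X ≤ lev a b Q A :=
      fun X hX₀ hX => by simpa using hM X hX₀ hX
    have := agree_on_top hb hM' hrig φ φ' hφ.1 hφ'.1 hφ.2.2 hφ'.2.2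
      (map_eq_image_of_agree hφ.2.1)
      (fun u hu => (hφ.2.1 u hu).trans (hφ'.2.1 u hu).symm) _ univ rfl (subset_univ _) hdens
    ext u
    exact this u (mem_univ u)
  | succ k ih =>
    intro M hM
    by_cases hex : ∃ X, A.image φ₀ ⊆ X ∧ X ⊆ M ∧ lev a b G X = lev a b Q A + 2 * ((k : ℤ) + 1)
    · obtain ⟨X₀, hX₀Y, hX₀M, hX₀⟩ := hex
      have hne : ((M.powerset).filter (fun X => A.image φ₀ ⊆ X ∧
          lev a b G X = lev a b Q A + 2 * ((k : ℤ) + 1))).Nonempty :=
        ⟨X₀, mem_filter.2 ⟨mem_powerset.2 hX₀M, hX₀Y, hX₀⟩⟩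
      obtain ⟨Xm, hXm, hmin⟩ := exists_min_image _ card hne
      rw [mem_filter, mem_powerset] at hXm
      obtain ⟨hXmM, hXmY, hXmlev⟩ := hXm
      -- `Xm` is contained in every top-level set between `Y₀` and `M`
      have hsub : ∀ Y, A.image φ₀ ⊆ Y → Y ⊆ M →
          lev a b G Y = lev a b Q A + 2 * ((k : ℤ) + 1) → Xm ⊆ Y := by
        intro Y hYY hYM hY
        have h1 := lev_supermod (a := a) hb.le G Xm Y
        have h2 := hM _ (hXmY.trans subset_union_left) (union_subset hXmM hYM)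
        have h3 := hM _ (subset_inter hXmY hYY)
          ((inter_subset_left (s₁ := Xm) (s₂ := Y)).trans hXmM)
        push_cast at h2 h3
        have h4 : lev a b G (Xm ∩ Y) = lev a b Q A + 2 * ((k : ℤ) + 1) := by linarith
        have h5 := hmin (Xm ∩ Y)
          (mem_filter.2 ⟨mem_powerset.2 (inter_subset_left.trans hXmM),
            subset_inter hXmY hYY, h4⟩)
        have h6 : Xm ∩ Y = Xm := eq_of_subset_of_card_le inter_subset_left h5
        exact inter_eq_left.1 h6
      -- every copy misses some vertex of `Xm` outside the base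
      have hcopy : ∀ φ ∈ copiesRel Q G A φ₀ M,
          ∃ x ∈ Xm \ A.image φ₀, φ ∈ copiesRel Q G A φ₀ (M.erase x) := by
        intro φ hφ
        rw [mem_copiesRel] at hφ
        by_contra hcon
        push Not at hcon
        have hall : ∀ x ∈ Xm, ∃ u, φ u = x := by
          intro x hx
          by_cases hxY : x ∈ A.image φ₀
          · obtain ⟨w, hw, rfl⟩ := mem_image.1 hxY
            exact ⟨w, hφ.2.1 w hw⟩
          · have h1 := hcon x (mem_sdiff.2 ⟨hx, hxY⟩)
            rw [mem_copiesRel] at h1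
            by_contra h2
            push Not at h2
            exact h1 ⟨fun u => mem_erase.2 ⟨h2 u, hφ.1 u⟩, hφ.2⟩
        have hXm_eq : (univ.filter (fun u => φ u ∈ Xm)).map φ = Xm := by
          ext x
          simp only [mem_map, mem_filter, mem_univ, true_and]
          constructor
          · rintro ⟨u, hu, rfl⟩; exact hu
          · intro hx
            obtain ⟨u, rfl⟩ := hall x hx
            exact ⟨u, hx, rfl⟩
        have hAS : A ⊆ univ.filter (fun u => φ u ∈ Xm) := by
          intro w hw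
          refine mem_filter.2 ⟨mem_univ _, hXmY ?_⟩
          rw [hφ.2.1 w hw]; exact mem_image_of_mem φ₀ hw
        have h1 := lev_map (a := a) (b := b) φ hφ.2.2 (univ.filter (fun u => φ u ∈ Xm))
        rw [hXm_eq] at h1
        have h2 := hbal (univ.filter (fun u => φ u ∈ Xm)) hAS
        have h3 : (0 : ℤ) ≤ (k : ℤ) := Int.natCast_nonneg k
        linarith
      have hcover : copiesRel Q G A φ₀ M ⊆
          (Xm \ A.image φ₀).biUnion (fun x => copiesRel Q G A φ₀ (M.erase x)) := by
        intro φ hφ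
        obtain ⟨x, hx, hx'⟩ := hcopy φ hφ
        exact mem_biUnion.2 ⟨x, hx, hx'⟩
      have hbound : ∀ x ∈ Xm \ A.image φ₀,
          (copiesRel Q G A φ₀ (M.erase x)).card ≤ (M \ A.image φ₀).card ^ k := by
        intro x hx
        have hM'' : ∀ X, A.image φ₀ ⊆ X → X ⊆ M.erase x →
            lev a b G X ≤ lev a b Q A + 2 * (k : ℤ) := by
          intro X hXY hX
          have h1 := hM X hXY (hX.trans (erase_subset _ _))
          have h2 : lev a b G X ≠ lev a b Q A + 2 * ((k : ℤ) + 1) := by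
            intro h
            have h3 := hsub X hXY (hX.trans (erase_subset _ _)) h
            exact (notMem_erase x M) (hX (h3 (mem_sdiff.1 hx).1))
          obtain ⟨m1, hm1⟩ := two_dvd_lev a b G X
          obtain ⟨m2, hm2⟩ := two_dvd_lev a b Q A
          push_cast at h1
          omega
        exact (ih (M.erase x) hM'').trans
          (Nat.pow_le_pow_left (card_le_card (sdiff_subset_sdiff (erase_subset _ _) le_rfl)) k)
      calc (copiesRel Q G A φ₀ M).card
          ≤ ((Xm \ A.image φ₀).biUnion (fun x => copiesRel Q G A φ₀ (M.erase x))).card :=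
            card_le_card hcover
        _ ≤ ∑ x ∈ Xm \ A.image φ₀, (copiesRel Q G A φ₀ (M.erase x)).card := card_biUnion_le
        _ ≤ ∑ _x ∈ Xm \ A.image φ₀, (M \ A.image φ₀).card ^ k := sum_le_sum hbound
        _ = (Xm \ A.image φ₀).card * (M \ A.image φ₀).card ^ k := by
            rw [sum_const, smul_eq_mul]
        _ ≤ (M \ A.image φ₀).card * (M \ A.image φ₀).card ^ k :=
            Nat.mul_le_mul_right _ (card_le_card (sdiff_subset_sdiff hXmM le_rfl))
        _ = (M \ A.image φ₀).card ^ (k + 1) := by rw [pow_succ, mul_comm]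
    · have hM' : ∀ X, A.image φ₀ ⊆ X → X ⊆ M → lev a b G X ≤ lev a b Q A + 2 * (k : ℤ) := by
        intro X hXY hX
        have h1 := hM X hXY hX
        have h2 : lev a b G X ≠ lev a b Q A + 2 * ((k : ℤ) + 1) := fun h => hex ⟨X, hXY, hX, h⟩
        obtain ⟨m1, hm1⟩ := two_dvd_lev a b G X
        obtain ⟨m2, hm2⟩ := two_dvd_lev a b Q A
        push_cast at h1
        omega
      have h1 := ih M hM'
      rcases (M \ A.image φ₀).eq_empty_or_nonempty with hemp | hne
      · have : copiesRel Q G A φ₀ M = ∅ := by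
          apply eq_empty_of_forall_notMem
          intro φ hφ
          rw [mem_copiesRel] at hφ
          apply hA
          apply eq_univ_of_forall
          intro u
          have h2 : φ u ∈ A.image φ₀ := by
            by_contra h3
            have h4 : φ u ∈ M \ A.image φ₀ := mem_sdiff.2 ⟨hφ.1 u, h3⟩
            rw [hemp] at h4
            exact notMem_empty _ h4
          obtain ⟨w, hw, hw'⟩ := mem_image.1 h2
          rw [← hφ.2.1 w hw] at hw'
          rw [← φ.injective hw']; exact hw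
        rw [this]; simp
      · exact h1.trans (Nat.pow_le_pow_right (card_pos.2 hne) (Nat.le_succ k))

/-- a non-induced injective homomorphism has an image of (doubled) level at least `2 b` -/
theorem lev_map_of_not_induced {a b : ℤ} (hb : 0 ≤ b) {Q : SimpleGraph U} {G : SimpleGraph V}
    (φ : U ↪ V) (hφ : ∀ u v, Q.Adj u v → G.Adj (φ u) (φ v)) {u v : U}
    (huv : G.Adj (φ u) (φ v)) (hQ : ¬ Q.Adj u v) :
    lev a b Q univ + 2 * b ≤ lev a b G (univ.map φ) := by
  have hd : dIn Q univ + 1 ≤ dIn G (univ.map φ) := by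
    unfold dIn
    have hinj : Function.Injective (fun q : U × U => (φ q.1, φ q.2)) := by
      intro q1 q2 h
      simp only [Prod.mk.injEq, EmbeddingLike.apply_eq_iff_eq] at h
      exact Prod.ext h.1 h.2
    have h1 : (φ u, φ v) ∉ (((univ : Finset U) ×ˢ (univ : Finset U)).filter
        (fun q : U × U => Q.Adj q.1 q.2)).image (fun q : U × U => (φ q.1, φ q.2)) := by
      intro h
      obtain ⟨q, hq, hq'⟩ := mem_image.1 h
      simp only [Prod.mk.injEq, EmbeddingLike.apply_eq_iff_eq] at hq'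
      rw [mem_filter, hq'.1, hq'.2] at hq
      exact hQ hq.2
    have h2 : insert (φ u, φ v) ((((univ : Finset U) ×ˢ (univ : Finset U)).filter
        (fun q : U × U => Q.Adj q.1 q.2)).image (fun q : U × U => (φ q.1, φ q.2))) ⊆
        (((univ : Finset U).map φ ×ˢ (univ : Finset U).map φ).filter
          (fun q : V × V => G.Adj q.1 q.2)) := by
      intro q hq
      rw [mem_insert] at hq
      rcases hq with rfl | hq
      · simp only [mem_filter, mem_product, mem_map', mem_univ, true_and]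
        exact huv
      · obtain ⟨q', hq', rfl⟩ := mem_image.1 hq
        simp only [mem_filter, mem_product, mem_map', mem_univ, true_and] at hq' ⊢
        exact hφ _ _ hq'
    have h3 := card_le_card h2
    rw [card_insert_of_notMem h1, card_image_of_injective _ hinj] at h3
    exact h3
  have hd2 : dIn Q univ + 2 ≤ dIn G (univ.map φ) := by
    obtain ⟨m1, hm1⟩ := two_dvd_dIn Q univ
    obtain ⟨m2, hm2⟩ := two_dvd_dIn G (univ.map φ)
    omega
  unfold lev
  rw [card_map]
  have hd' : (dIn Q univ : ℤ) + 2 ≤ (dIn G (univ.map φ) : ℤ) := by exact_mod_cast hd2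
  nlinarith [mul_le_mul_of_nonneg_left hd' hb]

/-- **Abstract Theorem B'.**  `A` is the base of the pattern `Q`, already embedded by `φ₀`.
If the new layer is relatively balanced of relative level `0`, all (doubled) levels of sets
containing the base image are at most `lev Q A + 2 K` with `K < b`, and the top-level sets are
rigid relative to the base image, then the number of injective homomorphisms `Q → G` extending
`φ₀` is at most `|V \ φ₀(A)| ^ K`. -/
theorem card_hom_extensions_le {a b : ℤ} (hb : 0 < b) {Q : SimpleGraph U} {G : SimpleGraph V}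
    {A : Finset U} (hA : A ≠ univ) (φ₀ : U → V)
    (hdens : lev a b Q univ = lev a b Q A)
    (hbal : ∀ S : Finset U, A ⊆ S → lev a b Q S ≤ lev a b Q A)
    {K : ℕ} (hK : (K : ℤ) < b)
    (hlev : ∀ X : Finset V, A.image φ₀ ⊆ X → lev a b G X ≤ lev a b Q A + 2 * (K : ℤ))
    (hrig : ∀ X : Finset V, A.image φ₀ ⊂ X → lev a b G X = lev a b Q A →
      (∀ Y, A.image φ₀ ⊆ Y → Y ⊆ X → lev a b G Y ≤ lev a b Q A) → RigidRel G (A.image φ₀) X) :
    (univ.filter (fun φ : U ↪ V =>
      (∀ u ∈ A, φ u = φ₀ u) ∧ ∀ u v, Q.Adj u v → G.Adj (φ u) (φ v))).card ≤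
      (univ \ A.image φ₀).card ^ K := by
  have h1 := card_copiesRel_le hb hA φ₀ hdens hbal hrig K univ (fun X hX _ => hlev X hX)
  refine le_trans (card_le_card ?_) h1
  intro φ hφ
  rw [mem_filter] at hφ
  rw [mem_copiesRel]
  refine ⟨fun u => mem_univ _, hφ.2.1, fun u v => ⟨hφ.2.2 u v, fun hadj => ?_⟩⟩
  by_contra hQ
  have h2 := lev_map_of_not_induced (a := a) hb.le φ hφ.2.2 hadj hQ
  have h3 := hlev (univ.map φ) (by
    rw [← map_eq_image_of_agree hφ.2.1]
    exact map_subset_map.2 (subset_univ _))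
  linarith

/-- **Abstract Theorem B.**  If the pattern `Q` is balanced of level `0`, all (doubled) levels in
`G` are at most `2 K` with `K < b`, and the tight sets of `G` are rigid, then `G` contains at most
`|V| ^ K` injective homomorphic images of `Q` (counted as embeddings). -/
theorem card_hom_embeddings_le [Nonempty U] {a b : ℤ} (hb : 0 < b) {Q : SimpleGraph U}
    {G : SimpleGraph V} (hdens : lev a b Q univ = 0) (hbal : ∀ S : Finset U, lev a b Q S ≤ 0)
    {K : ℕ} (hK : (K : ℤ) < b) (hlev : ∀ X : Finset V, lev a b G X ≤ 2 * (K : ℤ))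
    (hrig : ∀ X : Finset V, X.Nonempty → lev a b G X = 0 →
      (∀ Y ⊆ X, lev a b G Y ≤ 0) → Rigid G X) :
    (univ.filter (fun φ : U ↪ V => ∀ u v, Q.Adj u v → G.Adj (φ u) (φ v))).card ≤
      Fintype.card V ^ K := by
  rcases (univ.filter (fun φ : U ↪ V => ∀ u v, Q.Adj u v → G.Adj (φ u) (φ v))).eq_empty_or_nonempty
    with hemp | ⟨φ₁, _⟩
  · rw [hemp]; simp
  have hA : (∅ : Finset U) ≠ univ := by
    obtain ⟨u⟩ := ‹Nonempty U›
    intro h
    have := mem_univ u
    rw [← h] at this
    exact notMem_empty _ this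
  have h0 : lev a b Q (∅ : Finset U) = 0 := lev_empty a b Q
  have himg : (∅ : Finset U).image (φ₁ : U → V) = ∅ := image_empty _
  have h1 := card_hom_extensions_le (a := a) (b := b) (Q := Q) (G := G) (A := ∅) hb hA
    (φ₁ : U → V) (by rw [h0]; exact hdens) (fun S _ => by rw [h0]; exact hbal S) hK
    (fun X _ => by rw [h0, zero_add]; exact hlev X)
    (by
      intro X hX hX0 hXY
      rw [himg] at hX hXY ⊢
      rw [h0] at hX0 hXY
      exact (hrig X (Finset.empty_ssubset.1 hX) hX0
        (fun Y hY => hXY Y (empty_subset _) hY)).rigidRel ∅)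
  rw [himg, sdiff_empty, card_univ] at h1
  refine le_trans (card_le_card ?_) h1
  intro φ hφ
  rw [mem_filter] at hφ ⊢
  exact ⟨mem_univ _, fun u hu => absurd hu (notMem_empty _), hφ.2⟩

end Crest.Agent.Helper31.S0076
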