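import Mathlib
import Crest.Prelude.Def_CopyThreshold
import Crest.Agent.Helper31.S0076.ThmB
import Crest.Agent.Helper13.S0076.Rigid

/-!
# Theorem B of `notes/s0076_helper20.md` in host language (conditional infrastructure, row 55)

Nothing here is imported by any `SNNNN.lean`; nothing here proves a spread bound.

Glue of the abstract counting theorem `card_hom_embeddings_le` (`ThmB.lean`) with helper13's
rigidity leaves (`Crest/Agent/Helper13/S0076/Rigid.lean`), in helper52's `DenseHost` language: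
the host is a set `E₀` of edge slots of `K_n` satisfying the stabiliser bound `hstab`
(the exact form of `PP.card_stab_le`), and `edgeGraph E₀` is the Prelude's graph on `Fin n`.

`card_hom_embeddings_host_le`: let `Q` be a balanced pattern of density exactly `a / b`
(`b e(Q) = a |V(Q)|`, `b e(Q[S]) ≤ a |S|`), with `n^b p^a ≤ 1` (density at least `ρ`), and let
`K < b` satisfy `2^b p^(K+1) < 1` (e.g. `K = ⌊b κ⌋`).  Then the host contains at most `n ^ K`
injective homomorphic images of `Q` (counted as embeddings `V(Q) ↪ Fin n`).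
-/

set_option autoImplicit false

namespace Crest.Agent.Helper31.S0076

open Finset Crest.CombinatoricsR.RandomGraph Crest.Agent.Helper52.PP
open Crest.Agent.Helper13.S0076 (inducedSlots mem_inducedSlots half_le_pow_induced
  rigid_induced_of_stab)
open scoped Classical

variable {n : ℕ}

theorem edgeGraph_adj (E₀ : Finset (EdgeSlot n)) (x y : Fin n) :
    (edgeGraph E₀).Adj x y ↔ x ≠ y ∧ ∃ s ∈ E₀, s.1 = s(x, y) := by
  unfold edgeGraph
  rw [SimpleGraph.fromEdgeSet_adj]
  constructor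
  · rintro ⟨⟨h, hs⟩, hne⟩
    exact ⟨hne, ⟨_, h⟩, hs, rfl⟩
  · rintro ⟨hne, s, hs, hs'⟩
    refine ⟨?_, hne⟩
    have hd : ¬ (s(x, y)).IsDiag := by rw [← hs']; exact s.2
    refine ⟨hd, ?_⟩
    have hss : (⟨s(x, y), hd⟩ : EdgeSlot n) = s := Subtype.ext hs'.symm
    rw [hss]; exact hs

/-- ordered adjacent pairs inside `X` = twice the number of host slots inside `X` -/
theorem dIn_edgeGraph (E₀ : Finset (EdgeSlot n)) (X : Finset (Fin n)) :
    dIn (edgeGraph E₀) X = 2 * (inducedSlots E₀ X).card := by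
  unfold dIn
  have hmaps : ∀ q ∈ (X ×ˢ X).filter (fun q : Fin n × Fin n => (edgeGraph E₀).Adj q.1 q.2),
      s(q.1, q.2) ∈ (inducedSlots E₀ X).image (fun s : EdgeSlot n => s.1) := by
    intro q hq
    rw [mem_filter, mem_product, edgeGraph_adj] at hq
    obtain ⟨⟨hq1, hq2⟩, hne, s, hs, hs'⟩ := hq
    refine mem_image.2 ⟨s, (mem_inducedSlots E₀ X s).2 ⟨hs, ?_⟩, hs'⟩
    intro v hv
    rw [hs', Sym2.mem_iff] at hv
    rcases hv with rfl | rfl
    · exact hq1
    · exact hq2
  rw [card_eq_sum_card_fiberwise (f := fun q : Fin n × Fin n => s(q.1, q.2))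
    (fun q hq => mem_coe.2 (hmaps q (mem_coe.1 hq)))]
  have hfib : ∀ z ∈ (inducedSlots E₀ X).image (fun s : EdgeSlot n => s.1),
      (((X ×ˢ X).filter (fun q : Fin n × Fin n => (edgeGraph E₀).Adj q.1 q.2)).filter
        (fun q => s(q.1, q.2) = z)).card = 2 := by
    intro z hz
    obtain ⟨s, hs, rfl⟩ := mem_image.1 hz
    rw [mem_inducedSlots] at hs
    obtain ⟨x, y, hxy⟩ : ∃ x y : Fin n, s.1 = s(x, y) := Sym2.ind (fun a b => ⟨a, b, rfl⟩) s.1
    have hne : x ≠ y := by
      intro h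
      apply s.2
      rw [hxy]
      exact Sym2.mk_isDiag_iff.2 h
    have hxX : x ∈ X := hs.2 x (by rw [hxy]; exact Sym2.mem_mk_left x y)
    have hyX : y ∈ X := hs.2 y (by rw [hxy]; exact Sym2.mem_mk_right x y)
    have hadj : (edgeGraph E₀).Adj x y := (edgeGraph_adj E₀ x y).2 ⟨hne, s, hs.1, hxy⟩
    have hset : ((X ×ˢ X).filter (fun q : Fin n × Fin n => (edgeGraph E₀).Adj q.1 q.2)).filter
        (fun q => s(q.1, q.2) = s.1) = {(x, y), (y, x)} := by
      ext q
      simp only [mem_filter, mem_product, mem_insert, mem_singleton]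
      constructor
      · rintro ⟨_, hq⟩
        rw [hxy, Sym2.eq_iff] at hq
        rcases hq with ⟨h1, h2⟩ | ⟨h1, h2⟩
        · exact Or.inl (Prod.ext h1 h2)
        · exact Or.inr (Prod.ext h1 h2)
      · rintro (rfl | rfl)
        · exact ⟨⟨⟨hxX, hyX⟩, hadj⟩, hxy.symm⟩
        · exact ⟨⟨⟨hyX, hxX⟩, hadj.symm⟩, by rw [hxy]; exact Sym2.eq_swap⟩
    rw [hset, card_pair]
    intro h
    exact hne (congrArg Prod.fst h)
  rw [sum_congr rfl hfib, sum_const, smul_eq_mul,
    card_image_of_injective _ Subtype.val_injective, mul_comm]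

/-- the doubled level of `X` in the host: `2 (b e(X) - a |X|)` -/
theorem lev_edgeGraph (a b : ℤ) (E₀ : Finset (EdgeSlot n)) (X : Finset (Fin n)) :
    lev a b (edgeGraph E₀) X = 2 * (b * ((inducedSlots E₀ X).card : ℤ) - a * (X.card : ℤ)) := by
  unfold lev
  rw [dIn_edgeGraph]
  push_cast
  ring

/-- **Theorem B in host language.**  A host `E₀` with the stabiliser bound contains at most
`n ^ K` injective homomorphic images of a balanced pattern `Q` of density exactly `a / b`, if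
`n^b p^a ≤ 1`, `K < b` and `2^b p^(K+1) < 1`. -/
theorem card_hom_embeddings_host_le {U : Type} [Fintype U] [Nonempty U]
    (hn : 2 ≤ n) (E₀ : Finset (EdgeSlot n)) (p : ℝ) (hp0 : 0 ≤ p)
    (hstab : ∀ A ⊆ E₀, (((Finset.univ.filter (fun σ : Equiv.Perm (Fin n) =>
        A.map (slotPerm σ).toEmbedding = A)).card : ℕ) : ℝ)
          ≤ 2 * (n.factorial : ℝ) * p ^ A.card)
    (Q : SimpleGraph U) (a b : ℕ) (hb : 0 < b)
    (hdens : b * dIn Q univ = 2 * a * Fintype.card U)
    (hbal : ∀ S : Finset U, b * dIn Q S ≤ 2 * a * S.card)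
    (hρ : (n : ℝ) ^ b * p ^ a ≤ 1)
    (K : ℕ) (hK : K < b) (hκ : (2 : ℝ) ^ b * p ^ (K + 1) < 1) :
    (univ.filter (fun φ : U ↪ Fin n =>
      ∀ u v, Q.Adj u v → (edgeGraph E₀).Adj (φ u) (φ v))).card ≤ n ^ K := by
  have hp1 : p ≤ 1 := by
    by_contra h
    push Not at h
    have h1 : (1 : ℝ) ≤ p ^ (K + 1) := one_le_pow₀ h.le
    have h2 : (1 : ℝ) ≤ (2 : ℝ) ^ b := one_le_pow₀ (by norm_num)
    nlinarith
  have hnpos : (0 : ℝ) ≤ (n : ℝ) := Nat.cast_nonneg n
  have hbZ : (0 : ℤ) < (b : ℤ) := by exact_mod_cast hb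
  have hKZ : ((K : ℕ) : ℤ) < (b : ℤ) := by exact_mod_cast hK
  have hdens' : lev (a : ℤ) (b : ℤ) Q univ = 0 := by
    unfold lev
    rw [card_univ]
    have : ((b * dIn Q univ : ℕ) : ℤ) = ((2 * a * Fintype.card U : ℕ) : ℤ) := by rw [hdens]
    push_cast at this
    linarith
  have hbal' : ∀ S : Finset U, lev (a : ℤ) (b : ℤ) Q S ≤ 0 := by
    intro S
    unfold lev
    have : ((b * dIn Q S : ℕ) : ℤ) ≤ ((2 * a * S.card : ℕ) : ℤ) := by exact_mod_cast hbal S
    push_cast at this
    linarith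
  -- (F1): all levels are at most `K`
  have hlev : ∀ X : Finset (Fin n), lev (a : ℤ) (b : ℤ) (edgeGraph E₀) X ≤ 2 * (K : ℤ) := by
    intro X
    rw [lev_edgeGraph]
    by_contra hcon
    push Not at hcon
    have h1 : a * X.card + (K + 1) ≤ b * (inducedSlots E₀ X).card := by
      have : ((a * X.card + (K + 1) : ℕ) : ℤ) ≤ ((b * (inducedSlots E₀ X).card : ℕ) : ℤ) := by
        push_cast
        linarith
      exact_mod_cast this
    have h2 := half_le_pow_induced E₀ p hp0 hstab X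
    have h3 : (1 : ℝ) ≤ (2 * (n : ℝ) ^ X.card * p ^ (inducedSlots E₀ X).card) ^ b :=
      one_le_pow₀ h2
    have h4 : (2 * (n : ℝ) ^ X.card * p ^ (inducedSlots E₀ X).card) ^ b
        = (2 : ℝ) ^ b * ((n : ℝ) ^ b) ^ X.card * p ^ (b * (inducedSlots E₀ X).card) := by
      rw [mul_pow, mul_pow, ← pow_mul, ← pow_mul, ← pow_mul, mul_comm X.card b,
        mul_comm (inducedSlots E₀ X).card b]
    have h5 : p ^ (b * (inducedSlots E₀ X).card) ≤ p ^ (a * X.card + (K + 1)) :=
      pow_le_pow_of_le_one hp0 hp1 h1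
    have h6 : p ^ (a * X.card + (K + 1)) = (p ^ a) ^ X.card * p ^ (K + 1) := by
      rw [pow_add, pow_mul]
    have h7 : ((n : ℝ) ^ b) ^ X.card * (p ^ a) ^ X.card ≤ 1 := by
      rw [← mul_pow]
      exact pow_le_one₀ (by positivity) hρ
    have h8 : (0 : ℝ) ≤ (2 : ℝ) ^ b := by positivity
    have h9 : (0 : ℝ) ≤ p ^ (K + 1) := pow_nonneg hp0 _
    have h10 : (0 : ℝ) ≤ ((n : ℝ) ^ b) ^ X.card := by positivity
    have h11 : (2 : ℝ) ^ b * ((n : ℝ) ^ b) ^ X.card * p ^ (b * (inducedSlots E₀ X).card)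
        ≤ (2 : ℝ) ^ b * ((n : ℝ) ^ b) ^ X.card * ((p ^ a) ^ X.card * p ^ (K + 1)) := by
      rw [← h6]
      exact mul_le_mul_of_nonneg_left h5 (by positivity)
    have h12 : (2 : ℝ) ^ b * ((n : ℝ) ^ b) ^ X.card * ((p ^ a) ^ X.card * p ^ (K + 1))
        = ((2 : ℝ) ^ b * p ^ (K + 1)) * (((n : ℝ) ^ b) ^ X.card * (p ^ a) ^ X.card) := by ring
    have h13 : ((2 : ℝ) ^ b * p ^ (K + 1)) * (((n : ℝ) ^ b) ^ X.card * (p ^ a) ^ X.card)
        ≤ (2 : ℝ) ^ b * p ^ (K + 1) := by
      have := mul_le_mul_of_nonneg_left h7 (mul_nonneg h8 h9)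
      linarith
    linarith
  -- (F2): tight sets are rigid
  have hrig : ∀ X : Finset (Fin n), X.Nonempty → lev (a : ℤ) (b : ℤ) (edgeGraph E₀) X = 0 →
      (∀ Y ⊆ X, lev (a : ℤ) (b : ℤ) (edgeGraph E₀) Y ≤ 0) → Rigid (edgeGraph E₀) X := by
    intro X _ hX0 _
    rw [lev_edgeGraph] at hX0
    have h1 : b * (inducedSlots E₀ X).card = a * X.card := by
      have : ((b * (inducedSlots E₀ X).card : ℕ) : ℤ) = ((a * X.card : ℕ) : ℤ) := by
        push_cast
        linarith
      exact_mod_cast this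
    have h2 : ((n : ℝ) ^ X.card * p ^ (inducedSlots E₀ X).card) ^ b ≤ 1 := by
      have : ((n : ℝ) ^ X.card * p ^ (inducedSlots E₀ X).card) ^ b
          = ((n : ℝ) ^ b * p ^ a) ^ X.card := by
        rw [mul_pow, mul_pow, ← pow_mul, ← pow_mul, ← pow_mul, ← pow_mul,
          mul_comm (inducedSlots E₀ X).card b, h1, mul_comm X.card b]
      rw [this]
      exact pow_le_one₀ (by positivity) hρ
    have h3 : (n : ℝ) ^ X.card * p ^ (inducedSlots E₀ X).card ≤ 1 :=
      (pow_le_one_iff_of_nonneg (by positivity) hb.ne').1 h2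
    intro π hπX hinj hadj x hx
    by_cases hc : 2 ≤ X.card
    · have hbij : Function.Bijective
          (fun y : {y // y ∈ X} => (⟨π y.1, hπX y.1 y.2⟩ : {y // y ∈ X})) := by
        rw [← Finite.injective_iff_bijective]
        intro y z h
        exact Subtype.ext (hinj (mem_coe.2 y.2) (mem_coe.2 z.2) (congrArg Subtype.val h))
      have hσ : ∀ y (hy : y ∈ X),
          Equiv.Perm.ofSubtype (Equiv.ofBijective _ hbij) y = π y := by
        intro y hy
        rw [Equiv.Perm.ofSubtype_apply_of_mem _ hy]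
        rfl
      have hfix := rigid_induced_of_stab hn E₀ p hp0 hstab X hc h3
        (Equiv.Perm.ofSubtype (Equiv.ofBijective _ hbij))
        (fun y hy => by rw [hσ y hy]; exact hπX y hy)
        (by
          intro s hs
          rw [mem_inducedSlots] at hs
          obtain ⟨y, z, hyz⟩ : ∃ y z : Fin n, s.1 = s(y, z) :=
            Sym2.ind (fun a b => ⟨a, b, rfl⟩) s.1
          have hne : y ≠ z := by
            intro h
            apply s.2
            rw [hyz]
            exact Sym2.mk_isDiag_iff.2 h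
          have hyX : y ∈ X := hs.2 y (by rw [hyz]; exact Sym2.mem_mk_left y z)
          have hzX : z ∈ X := hs.2 z (by rw [hyz]; exact Sym2.mem_mk_right y z)
          have hadj' := hadj y hyX z hzX ((edgeGraph_adj E₀ y z).2 ⟨hne, s, hs.1, hyz⟩)
          obtain ⟨_, s', hs', hs'val⟩ := (edgeGraph_adj E₀ _ _).1 hadj'
          have heq : slotPerm (Equiv.Perm.ofSubtype (Equiv.ofBijective _ hbij)) s = s' := by
            apply Subtype.ext
            rw [slotPerm_val, hyz, Sym2.map_mk, hσ y hyX, hσ z hzX, hs'val]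
          rw [heq]; exact hs')
        x hx
      rw [hσ x hx] at hfix
      exact hfix
    · have hc' : X.card ≤ 1 := by omega
      exact card_le_one.1 hc' _ (hπX x hx) _ hx
  have := card_hom_embeddings_le (a := (a : ℤ)) (b := (b : ℤ)) hbZ hdens' hbal' hKZ hlev hrig
  rw [Fintype.card_fin] at this
  exact this

end Crest.Agent.Helper31.S0076
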