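import Mathlib
import Crest.Prelude.Def_CopyThreshold
import Crest.Agent.Helper31.S0076.ThmB
import Crest.Agent.Helper31.S0076.ThmBHost
import Crest.Agent.Helper13.S0076.Rigid

/-!
# Theorem B' of `notes/s0076_helper20.md` in host language (conditional infrastructure, row 55)

Nothing here is imported by any `SNNNN.lean`; nothing here proves a spread bound.

One rigid layer over a fixed induced embedding `φ₀` of the base `A` of the pattern `Q`, the base
image having excess `≥ 0` (`n^{|A|} p^{e(Y₀)} ≤ 1`): if the layer `V(Q) \ A` is relatively balanced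
of relative density exactly `a / b`, `n^b p^a ≤ 1`, `K < b` and `2^b p^(K+1) < 1`, then

* `card_hom_extensions_host_le` : at most `n ^ K` injective homomorphisms `Q → host` extend `φ₀`;
* `hom_extension_induced` : each of them is an induced embedding whose image has excess `≥ 0`
  (so the next layer can be put on top of it).
-/

set_option autoImplicit false

namespace Crest.Agent.Helper31.S0076

open Finset Crest.CombinatoricsR.RandomGraph Crest.Agent.Helper52.PP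
open Crest.Agent.Helper13.S0076 (inducedSlots mem_inducedSlots half_le_pow_induced
  rigid_induced_of_stab)
open scoped Classical

variable {n : ℕ}

/-- numeric form of (F1): a sub-host of relative size `(d, m)` with `1 ≤ 2 n^d p^m` has level
`b m - a d ≤ K`. -/
theorem num_level_bound {a b K : ℕ} {p : ℝ} (hp0 : 0 ≤ p) (hp1 : p ≤ 1)
    (hρ : (n : ℝ) ^ b * p ^ a ≤ 1) (hκ : (2 : ℝ) ^ b * p ^ (K + 1) < 1) (d m : ℕ)
    (h : (1 : ℝ) ≤ 2 * (n : ℝ) ^ d * p ^ m) : b * m < a * d + (K + 1) := by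
  by_contra hcon
  push Not at hcon
  have h3 : (1 : ℝ) ≤ (2 * (n : ℝ) ^ d * p ^ m) ^ b := one_le_pow₀ h
  have h4 : (2 * (n : ℝ) ^ d * p ^ m) ^ b
      = (2 : ℝ) ^ b * ((n : ℝ) ^ b) ^ d * p ^ (b * m) := by
    rw [mul_pow, mul_pow, ← pow_mul, ← pow_mul, ← pow_mul, mul_comm d b, mul_comm m b]
  have h5 : p ^ (b * m) ≤ p ^ (a * d + (K + 1)) := pow_le_pow_of_le_one hp0 hp1 hcon
  have h6 : p ^ (a * d + (K + 1)) = (p ^ a) ^ d * p ^ (K + 1) := by
    rw [pow_add, pow_mul]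
  have h7 : ((n : ℝ) ^ b) ^ d * (p ^ a) ^ d ≤ 1 := by
    rw [← mul_pow]
    exact pow_le_one₀ (by positivity) hρ
  have h8 : (0 : ℝ) ≤ (2 : ℝ) ^ b := by positivity
  have h9 : (0 : ℝ) ≤ p ^ (K + 1) := pow_nonneg hp0 _
  have h11 : (2 : ℝ) ^ b * ((n : ℝ) ^ b) ^ d * p ^ (b * m)
      ≤ (2 : ℝ) ^ b * ((n : ℝ) ^ b) ^ d * ((p ^ a) ^ d * p ^ (K + 1)) := by
    rw [← h6]
    exact mul_le_mul_of_nonneg_left h5 (by positivity)
  have h12 : (2 : ℝ) ^ b * ((n : ℝ) ^ b) ^ d * ((p ^ a) ^ d * p ^ (K + 1))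
      = ((2 : ℝ) ^ b * p ^ (K + 1)) * (((n : ℝ) ^ b) ^ d * (p ^ a) ^ d) := by ring
  have h13 : ((2 : ℝ) ^ b * p ^ (K + 1)) * (((n : ℝ) ^ b) ^ d * (p ^ a) ^ d)
      ≤ (2 : ℝ) ^ b * p ^ (K + 1) := by
    have := mul_le_mul_of_nonneg_left h7 (mul_nonneg h8 h9)
    linarith
  linarith

/-- numeric form of (F2): level `0` gives excess `≥ 0`. -/
theorem num_tight {a b : ℕ} {p : ℝ} (hp0 : 0 ≤ p) (hb : 0 < b)
    (hρ : (n : ℝ) ^ b * p ^ a ≤ 1) (d m : ℕ) (h : b * m = a * d) :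
    (n : ℝ) ^ d * p ^ m ≤ 1 := by
  have h2 : ((n : ℝ) ^ d * p ^ m) ^ b ≤ 1 := by
    have : ((n : ℝ) ^ d * p ^ m) ^ b = ((n : ℝ) ^ b * p ^ a) ^ d := by
      rw [mul_pow, mul_pow, ← pow_mul, ← pow_mul, ← pow_mul, ← pow_mul, mul_comm m b, h,
        mul_comm d b]
    rw [this]
    exact pow_le_one₀ (by positivity) hρ
  exact (pow_le_one_iff_of_nonneg (by positivity) hb.ne').1 h2

/-- helper13's rigidity leaf in the `Rigid` form of `ThmB.lean`: a vertex set of excess `≥ 0`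
is rigid in the host. -/
theorem rigid_edgeGraph_of_le_one (hn : 2 ≤ n) (E₀ : Finset (EdgeSlot n)) (p : ℝ) (hp0 : 0 ≤ p)
    (hstab : ∀ A ⊆ E₀, (((Finset.univ.filter (fun σ : Equiv.Perm (Fin n) =>
        A.map (slotPerm σ).toEmbedding = A)).card : ℕ) : ℝ)
          ≤ 2 * (n.factorial : ℝ) * p ^ A.card)
    (X : Finset (Fin n)) (h3 : (n : ℝ) ^ X.card * p ^ (inducedSlots E₀ X).card ≤ 1) :
    Rigid (edgeGraph E₀) X := by
  intro π hπX hinj hadj x hx
  by_cases hc : 2 ≤ X.card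
  · have hbij : Function.Bijective
        (fun y : {y // y ∈ X} => (⟨π y.1, hπX y.1 y.2⟩ : {y // y ∈ X})) := by
      rw [← Finite.injective_iff_bijective]
      intro y z h
      exact Subtype.ext (hinj (mem_coe.2 y.2) (mem_coe.2 z.2) (congrArg Subtype.val h))
    have hσ : ∀ y (hy : y ∈ X),
        Equiv.Perm.ofSubtype (Equiv.ofBijective _ hbij) y = π y := by
      intro y hy
      rw [Equiv.Perm.ofSubtype_apply_of_mem _ hy]
      rfl
    have hfix := rigid_induced_of_stab hn E₀ p hp0 hstab X hc h3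
      (Equiv.Perm.ofSubtype (Equiv.ofBijective _ hbij))
      (fun y hy => by rw [hσ y hy]; exact hπX y hy)
      (by
        intro s hs
        rw [mem_inducedSlots] at hs
        obtain ⟨y, z, hyz⟩ : ∃ y z : Fin n, s.1 = s(y, z) :=
          Sym2.ind (fun a b => ⟨a, b, rfl⟩) s.1
        have hne : y ≠ z := by
          intro h
          apply s.2
          rw [hyz]
          exact Sym2.mk_isDiag_iff.2 h
        have hyX : y ∈ X := hs.2 y (by rw [hyz]; exact Sym2.mem_mk_left y z)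
        have hzX : z ∈ X := hs.2 z (by rw [hyz]; exact Sym2.mem_mk_right y z)
        have hadj' := hadj y hyX z hzX ((edgeGraph_adj E₀ y z).2 ⟨hne, s, hs.1, hyz⟩)
        obtain ⟨_, s', hs', hs'val⟩ := (edgeGraph_adj E₀ _ _).1 hadj'
        have heq : slotPerm (Equiv.Perm.ofSubtype (Equiv.ofBijective _ hbij)) s = s' := by
          apply Subtype.ext
          rw [slotPerm_val, hyz, Sym2.map_mk, hσ y hyX, hσ z hzX, hs'val]
        rw [heq]; exact hs')
      x hx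
    rw [hσ x hx] at hfix
    exact hfix
  · have hc' : X.card ≤ 1 := by omega
    exact card_le_one.1 hc' _ (hπX x hx) _ hx

/-- `dIn` is preserved by a map that is injective and induced on `A` -/
theorem dIn_image_of_injOn {U V : Type} [Fintype U] [Fintype V] [DecidableEq V]
    {Q : SimpleGraph U} {G : SimpleGraph V} (φ₀ : U → V) (A : Finset U) (hinj : Set.InjOn φ₀ (A : Set U))
    (hiff : ∀ u ∈ A, ∀ v ∈ A, Q.Adj u v ↔ G.Adj (φ₀ u) (φ₀ v)) :
    dIn G (A.image φ₀) = dIn Q A := by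
  unfold dIn
  symm
  apply card_bij (fun q _ => (φ₀ q.1, φ₀ q.2))
  · intro q hq
    simp only [mem_filter, mem_product] at hq ⊢
    exact ⟨⟨mem_image_of_mem φ₀ hq.1.1, mem_image_of_mem φ₀ hq.1.2⟩,
      (hiff _ hq.1.1 _ hq.1.2).1 hq.2⟩
  · intro q1 hq1 q2 hq2 h
    simp only [mem_filter, mem_product] at hq1 hq2
    simp only [Prod.mk.injEq] at h
    exact Prod.ext (hinj (mem_coe.2 hq1.1.1) (mem_coe.2 hq2.1.1) h.1)
      (hinj (mem_coe.2 hq1.1.2) (mem_coe.2 hq2.1.2) h.2)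
  · intro q hq
    simp only [mem_filter, mem_product, mem_image] at hq
    obtain ⟨⟨⟨u, hu, hu'⟩, ⟨v, hv, hv'⟩⟩, hadj⟩ := hq
    refine ⟨(u, v), ?_, Prod.ext hu' hv'⟩
    simp only [mem_filter, mem_product]
    refine ⟨⟨hu, hv⟩, ?_⟩
    rw [hiff u hu v hv, hu', hv']; exact hadj

theorem inducedSlots_mono (E₀ : Finset (EdgeSlot n)) {X Y : Finset (Fin n)} (h : X ⊆ Y) :
    inducedSlots E₀ X ⊆ inducedSlots E₀ Y := by
  intro s hs
  rw [mem_inducedSlots] at hs ⊢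
  exact ⟨hs.1, fun v hv => h (hs.2 v hv)⟩

/-- The two level facts over an induced base of excess `≥ 0`: relative levels are at most `K`,
and sets of relative level `0` have excess `≥ 0`. -/
theorem rel_facts {U : Type} [Fintype U] (E₀ : Finset (EdgeSlot n)) (p : ℝ) (hp0 : 0 ≤ p)
    (hstab : ∀ A ⊆ E₀, (((Finset.univ.filter (fun σ : Equiv.Perm (Fin n) =>
        A.map (slotPerm σ).toEmbedding = A)).card : ℕ) : ℝ)
          ≤ 2 * (n.factorial : ℝ) * p ^ A.card)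
    (Q : SimpleGraph U) (A : Finset U) (φ₀ : U → Fin n)
    (hinj : Set.InjOn φ₀ (A : Set U))
    (hiff : ∀ u ∈ A, ∀ v ∈ A, Q.Adj u v ↔ (edgeGraph E₀).Adj (φ₀ u) (φ₀ v))
    (hbase : (n : ℝ) ^ A.card * p ^ (inducedSlots E₀ (A.image φ₀)).card ≤ 1)
    (a b : ℕ) (hb : 0 < b) (hρ : (n : ℝ) ^ b * p ^ a ≤ 1)
    (K : ℕ) (hκ : (2 : ℝ) ^ b * p ^ (K + 1) < 1) :
    (∀ X : Finset (Fin n), A.image φ₀ ⊆ X →
      lev (a : ℤ) (b : ℤ) (edgeGraph E₀) X ≤ lev (a : ℤ) (b : ℤ) Q A + 2 * (K : ℤ)) ∧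
    (∀ X : Finset (Fin n), A.image φ₀ ⊆ X →
      lev (a : ℤ) (b : ℤ) (edgeGraph E₀) X = lev (a : ℤ) (b : ℤ) Q A →
      (n : ℝ) ^ X.card * p ^ (inducedSlots E₀ X).card ≤ 1) := by
  have hp1 : p ≤ 1 := by
    by_contra h
    push Not at h
    have h1 : (1 : ℝ) ≤ p ^ (K + 1) := one_le_pow₀ h.le
    have h2 : (1 : ℝ) ≤ (2 : ℝ) ^ b := one_le_pow₀ (by norm_num)
    nlinarith
  have hcardY : (A.image φ₀).card = A.card := card_image_of_injOn hinj
  have hlevY : lev (a : ℤ) (b : ℤ) (edgeGraph E₀) (A.image φ₀) = lev (a : ℤ) (b : ℤ) Q A := by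
    unfold lev
    rw [dIn_image_of_injOn φ₀ A hinj hiff, hcardY]
  rw [lev_edgeGraph] at hlevY
  rw [← hcardY] at hbase
  -- common decomposition for `X ⊇ Y₀`
  have hdecomp : ∀ X : Finset (Fin n), A.image φ₀ ⊆ X → ∃ d m : ℕ,
      X.card = (A.image φ₀).card + d ∧
      (inducedSlots E₀ X).card = (inducedSlots E₀ (A.image φ₀)).card + m ∧
      (1 : ℝ) ≤ 2 * (n : ℝ) ^ d * p ^ m ∧
      ((n : ℝ) ^ d * p ^ m ≤ 1 → (n : ℝ) ^ X.card * p ^ (inducedSlots E₀ X).card ≤ 1) := by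
    intro X hX
    obtain ⟨d, hd⟩ := Nat.exists_eq_add_of_le (card_le_card hX)
    obtain ⟨m, hm⟩ := Nat.exists_eq_add_of_le (card_le_card (inducedSlots_mono E₀ hX))
    have hsplit : (n : ℝ) ^ X.card * p ^ (inducedSlots E₀ X).card
        = ((n : ℝ) ^ (A.image φ₀).card * p ^ (inducedSlots E₀ (A.image φ₀)).card)
          * ((n : ℝ) ^ d * p ^ m) := by
      rw [hd, hm, pow_add, pow_add]; ring
    have hnn : (0 : ℝ) ≤ (n : ℝ) ^ d * p ^ m := by positivity
    have hnn' : (0 : ℝ) ≤ (n : ℝ) ^ (A.image φ₀).card * p ^ (inducedSlots E₀ (A.image φ₀)).card := by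
      positivity
    refine ⟨d, m, hd, hm, ?_, ?_⟩
    · have h1 := half_le_pow_induced E₀ p hp0 hstab X
      have h2 : 2 * (n : ℝ) ^ X.card * p ^ (inducedSlots E₀ X).card
          = 2 * ((n : ℝ) ^ X.card * p ^ (inducedSlots E₀ X).card) := by ring
      rw [h2, hsplit] at h1
      have h3 : ((n : ℝ) ^ (A.image φ₀).card * p ^ (inducedSlots E₀ (A.image φ₀)).card)
          * ((n : ℝ) ^ d * p ^ m) ≤ 1 * ((n : ℝ) ^ d * p ^ m) :=
        mul_le_mul_of_nonneg_right hbase hnn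
      linarith
    · intro hle
      rw [hsplit]
      exact mul_le_one₀ hbase hnn hle
  constructor
  · intro X hX
    obtain ⟨d, m, hd, hm, h1, _⟩ := hdecomp X hX
    have h2 := num_level_bound hp0 hp1 hρ hκ d m h1
    rw [lev_edgeGraph, ← hlevY, hd, hm]
    have h3 : ((b * m : ℕ) : ℤ) < ((a * d + (K + 1) : ℕ) : ℤ) := by exact_mod_cast h2
    push_cast at h3 ⊢
    linarith
  · intro X hX hX0
    obtain ⟨d, m, hd, hm, _, h2⟩ := hdecomp X hX
    apply h2
    apply num_tight hp0 hb hρ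
    rw [lev_edgeGraph, ← hlevY, hd, hm] at hX0
    have h3 : ((b * m : ℕ) : ℤ) = ((a * d : ℕ) : ℤ) := by
      push_cast at hX0 ⊢
      linarith
    exact_mod_cast h3

/-- **Theorem B' in host language**: one rigid layer over a fixed induced embedding of the base. -/
theorem card_hom_extensions_host_le {U : Type} [Fintype U]
    (hn : 2 ≤ n) (E₀ : Finset (EdgeSlot n)) (p : ℝ) (hp0 : 0 ≤ p)
    (hstab : ∀ A ⊆ E₀, (((Finset.univ.filter (fun σ : Equiv.Perm (Fin n) =>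
        A.map (slotPerm σ).toEmbedding = A)).card : ℕ) : ℝ)
          ≤ 2 * (n.factorial : ℝ) * p ^ A.card)
    (Q : SimpleGraph U) (A : Finset U) (hA : A ≠ univ) (φ₀ : U → Fin n)
    (hinj : Set.InjOn φ₀ (A : Set U))
    (hiff : ∀ u ∈ A, ∀ v ∈ A, Q.Adj u v ↔ (edgeGraph E₀).Adj (φ₀ u) (φ₀ v))
    (hbase : (n : ℝ) ^ A.card * p ^ (inducedSlots E₀ (A.image φ₀)).card ≤ 1)
    (a b : ℕ) (hb : 0 < b)
    (hdens : b * dIn Q univ + 2 * a * A.card = b * dIn Q A + 2 * a * Fintype.card U)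
    (hbal : ∀ S : Finset U, A ⊆ S →
      b * dIn Q S + 2 * a * A.card ≤ b * dIn Q A + 2 * a * S.card)
    (hρ : (n : ℝ) ^ b * p ^ a ≤ 1)
    (K : ℕ) (hK : K < b) (hκ : (2 : ℝ) ^ b * p ^ (K + 1) < 1) :
    (univ.filter (fun φ : U ↪ Fin n => (∀ u ∈ A, φ u = φ₀ u) ∧
      ∀ u v, Q.Adj u v → (edgeGraph E₀).Adj (φ u) (φ v))).card ≤ n ^ K := by
  obtain ⟨hlev, htight⟩ := rel_facts E₀ p hp0 hstab Q A φ₀ hinj hiff hbase a b hb hρ K hκ
  have hbZ : (0 : ℤ) < (b : ℤ) := by exact_mod_cast hb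
  have hKZ : ((K : ℕ) : ℤ) < (b : ℤ) := by exact_mod_cast hK
  have hdens' : lev (a : ℤ) (b : ℤ) Q univ = lev (a : ℤ) (b : ℤ) Q A := by
    unfold lev
    rw [card_univ]
    have : ((b * dIn Q univ + 2 * a * A.card : ℕ) : ℤ)
        = ((b * dIn Q A + 2 * a * Fintype.card U : ℕ) : ℤ) := by rw [hdens]
    push_cast at this
    linarith
  have hbal' : ∀ S : Finset U, A ⊆ S →
      lev (a : ℤ) (b : ℤ) Q S ≤ lev (a : ℤ) (b : ℤ) Q A := by
    intro S hS
    unfold lev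
    have : ((b * dIn Q S + 2 * a * A.card : ℕ) : ℤ)
        ≤ ((b * dIn Q A + 2 * a * S.card : ℕ) : ℤ) := by exact_mod_cast hbal S hS
    push_cast at this
    linarith
  have himg : @Finset.image U (Fin n) (fun a b => Classical.propDecidable (a = b)) φ₀ A
      = A.image φ₀ := by
    ext x
    simp only [mem_image]
  have h := card_hom_extensions_le hbZ hA φ₀ hdens' hbal' hKZ
    (by rw [himg]; exact hlev)
    (by
      rw [himg]
      exact fun X hX hX0 _ => (rigid_edgeGraph_of_le_one hn E₀ p hp0 hstab X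
        (htight X hX.subset hX0)).rigidRel _)
  rw [Finset.filter_congr_decidable] at h
  exact h.trans (Nat.pow_le_pow_left ((card_le_univ _).trans (le_of_eq (Fintype.card_fin n))) K)

/-- Every injective homomorphism extending the base embedding is induced and its image has
excess `≥ 0`. -/
theorem hom_extension_induced {U : Type} [Fintype U]
    (E₀ : Finset (EdgeSlot n)) (p : ℝ) (hp0 : 0 ≤ p)
    (hstab : ∀ A ⊆ E₀, (((Finset.univ.filter (fun σ : Equiv.Perm (Fin n) =>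
        A.map (slotPerm σ).toEmbedding = A)).card : ℕ) : ℝ)
          ≤ 2 * (n.factorial : ℝ) * p ^ A.card)
    (Q : SimpleGraph U) (A : Finset U) (φ₀ : U → Fin n)
    (hinj : Set.InjOn φ₀ (A : Set U))
    (hiff : ∀ u ∈ A, ∀ v ∈ A, Q.Adj u v ↔ (edgeGraph E₀).Adj (φ₀ u) (φ₀ v))
    (hbase : (n : ℝ) ^ A.card * p ^ (inducedSlots E₀ (A.image φ₀)).card ≤ 1)
    (a b : ℕ) (hb : 0 < b)
    (hdens : b * dIn Q univ + 2 * a * A.card = b * dIn Q A + 2 * a * Fintype.card U)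
    (hρ : (n : ℝ) ^ b * p ^ a ≤ 1)
    (K : ℕ) (hK : K < b) (hκ : (2 : ℝ) ^ b * p ^ (K + 1) < 1)
    (φ : U ↪ Fin n) (hφA : ∀ u ∈ A, φ u = φ₀ u)
    (hφ : ∀ u v, Q.Adj u v → (edgeGraph E₀).Adj (φ u) (φ v)) :
    (∀ u v, Q.Adj u v ↔ (edgeGraph E₀).Adj (φ u) (φ v)) ∧
      (n : ℝ) ^ Fintype.card U * p ^ (inducedSlots E₀ (univ.map φ)).card ≤ 1 := by
  obtain ⟨hlev, htight⟩ := rel_facts E₀ p hp0 hstab Q A φ₀ hinj hiff hbase a b hb hρ K hκ
  have hbZ : (0 : ℤ) < (b : ℤ) := by exact_mod_cast hb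
  have hKZ : ((K : ℕ) : ℤ) < (b : ℤ) := by exact_mod_cast hK
  have hdens' : lev (a : ℤ) (b : ℤ) Q univ = lev (a : ℤ) (b : ℤ) Q A := by
    unfold lev
    rw [card_univ]
    have : ((b * dIn Q univ + 2 * a * A.card : ℕ) : ℤ)
        = ((b * dIn Q A + 2 * a * Fintype.card U : ℕ) : ℤ) := by rw [hdens]
    push_cast at this
    linarith
  have hsub : A.image φ₀ ⊆ univ.map φ := by
    intro x hx
    obtain ⟨u, hu, rfl⟩ := mem_image.1 hx
    rw [← hφA u hu]
    exact mem_map_of_mem φ (mem_univ u)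
  have hind : ∀ u v, Q.Adj u v ↔ (edgeGraph E₀).Adj (φ u) (φ v) := by
    intro u v
    refine ⟨hφ u v, fun hadj => ?_⟩
    by_contra hQ
    have h2 := lev_map_of_not_induced (a := (a : ℤ)) hbZ.le φ hφ hadj hQ
    have h3 := hlev (univ.map φ) hsub
    linarith
  refine ⟨hind, ?_⟩
  have h1 := htight (univ.map φ) hsub (by rw [lev_map φ hind]; exact hdens')
  rwa [card_map, card_univ] at h1

end Crest.Agent.Helper31.S0076
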