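import Mathlib
import Crest.Prelude.Def_CopyThreshold
import Crest.Agent.Helper31.S0076.ThmB
import Crest.Agent.Helper31.S0076.ThmBHost
import Crest.Agent.Helper31.S0076.ThmBRel
import Crest.Agent.Helper13.S0076.Rigid

/-!
# Theorem C of `notes/s0076_helper20.md` in host language (conditional infrastructure, row 55)

Nothing here is imported by any `SNNNN.lean`; nothing here proves a spread bound.

The rigid part of a pattern `R` is given by a chain `∅ = A 0 ⊂ A 1 ⊂ ⋯ ⊂ A t` of vertex sets;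
layer `i` (the set `A (i+1) \ A i`) is relatively balanced over `A i` of relative density exactly
`a i / b i`, with `n^(b i) p^(a i) ≤ 1`, `K i < b i` and `2^(b i) p^(K i + 1) < 1`.  Then

* `card_hom_chain_le` : the host contains at most `n ^ (∑ i < t, K i)` injective homomorphic
  images of `R[A t]`, each of them induced and of excess `≥ 0`;
* `card_hom_embeddings_chain_le` : the same for `R` itself when `A t = univ`.

`layer_step` is Theorem B' for the sub-pattern on `D` over the base `A ⊆ D`.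
-/

set_option autoImplicit false

namespace Crest.Agent.Helper31.S0076

open Finset Crest.CombinatoricsR.RandomGraph Crest.Agent.Helper52.PP
open Crest.Agent.Helper13.S0076 (inducedSlots mem_inducedSlots half_le_pow_induced
  rigid_induced_of_stab)
open scoped Classical

variable {n : ℕ}

/-- Theorem B' for the sub-pattern `R[D]` over the base `A ⊆ D` embedded by `ψ₀`. -/
theorem layer_step {U : Type} [Fintype U] (hn : 2 ≤ n) (E₀ : Finset (EdgeSlot n)) (p : ℝ)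
    (hp0 : 0 ≤ p)
    (hstab : ∀ A ⊆ E₀, (((Finset.univ.filter (fun σ : Equiv.Perm (Fin n) =>
        A.map (slotPerm σ).toEmbedding = A)).card : ℕ) : ℝ)
          ≤ 2 * (n.factorial : ℝ) * p ^ A.card)
    (R : SimpleGraph U) (A D : Finset U) (hAD : A ⊆ D) (hne : A ≠ D)
    (a b : ℕ) (hb : 0 < b)
    (hdens : b * dIn R D + 2 * a * A.card = b * dIn R A + 2 * a * D.card)
    (hbal : ∀ S : Finset U, A ⊆ S → S ⊆ D →
      b * dIn R S + 2 * a * A.card ≤ b * dIn R A + 2 * a * S.card)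
    (hρ : (n : ℝ) ^ b * p ^ a ≤ 1) (K : ℕ) (hK : K < b) (hκ : (2 : ℝ) ^ b * p ^ (K + 1) < 1)
    (ψ₀ : {x // x ∈ A} ↪ Fin n)
    (hψ₀ : ∀ u v : {x // x ∈ A}, R.Adj u.1 v.1 ↔ (edgeGraph E₀).Adj (ψ₀ u) (ψ₀ v))
    (hbase : (n : ℝ) ^ A.card * p ^ (inducedSlots E₀ (univ.map ψ₀)).card ≤ 1) :
    (univ.filter (fun ψ : {x // x ∈ D} ↪ Fin n =>
        (∀ u : {x // x ∈ A}, ψ ⟨u.1, hAD u.2⟩ = ψ₀ u) ∧
        ∀ u v : {x // x ∈ D}, R.Adj u.1 v.1 → (edgeGraph E₀).Adj (ψ u) (ψ v))).card ≤ n ^ K ∧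
    ∀ ψ : {x // x ∈ D} ↪ Fin n, (∀ u : {x // x ∈ A}, ψ ⟨u.1, hAD u.2⟩ = ψ₀ u) →
      (∀ u v : {x // x ∈ D}, R.Adj u.1 v.1 → (edgeGraph E₀).Adj (ψ u) (ψ v)) →
      (∀ u v : {x // x ∈ D}, R.Adj u.1 v.1 ↔ (edgeGraph E₀).Adj (ψ u) (ψ v)) ∧
        (n : ℝ) ^ D.card * p ^ (inducedSlots E₀ (univ.map ψ)).card ≤ 1 := by
  -- the sub-pattern on `D`
  let Q' : SimpleGraph {x // x ∈ D} := SimpleGraph.comap Subtype.val R
  have hQ'adj : ∀ u v : {x // x ∈ D}, Q'.Adj u v ↔ R.Adj u.1 v.1 := fun u v => Iff.rfl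
  let val : {x // x ∈ D} ↪ U := Function.Embedding.subtype _
  let A' : Finset {x // x ∈ D} := univ.filter (fun x => x.1 ∈ A)
  have hA'mem : ∀ x : {x // x ∈ D}, x ∈ A' ↔ x.1 ∈ A := fun x => by
    simp only [A', mem_filter, mem_univ, true_and]
  have hn0 : 0 < n := by omega
  let φ₀ : {x // x ∈ D} → Fin n := fun x => if h : x.1 ∈ A then ψ₀ ⟨x.1, h⟩ else ⟨0, hn0⟩
  have hφ₀A : ∀ (x : {x // x ∈ D}) (h : x.1 ∈ A), φ₀ x = ψ₀ ⟨x.1, h⟩ := fun x h => by
    simp only [φ₀, dif_pos h]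
  -- transports
  have hmapA : A'.map val = A := by
    ext x
    simp only [mem_map, hA'mem]
    constructor
    · rintro ⟨y, hy, rfl⟩; exact hy
    · intro hx; exact ⟨⟨x, hAD hx⟩, hx, rfl⟩
  have hmapU : (univ : Finset {x // x ∈ D}).map val = D := by
    ext x
    simp only [mem_map, mem_univ, true_and]
    constructor
    · rintro ⟨y, rfl⟩; exact y.2
    · intro hx; exact ⟨⟨x, hx⟩, rfl⟩
  have hdIn : ∀ S' : Finset {x // x ∈ D}, dIn Q' S' = dIn R (S'.map val) := fun S' =>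
    (dIn_map val (fun u v => hQ'adj u v) S').symm
  have hcardA : A'.card = A.card := by rw [← hmapA, card_map]
  have hA'ne : A' ≠ univ := by
    intro h
    apply hne
    rw [← hmapA, h, hmapU]
  have hinj : Set.InjOn φ₀ (A' : Set {x // x ∈ D}) := by
    intro x hx y hy hxy
    have hx' : x.1 ∈ A := (hA'mem x).1 (mem_coe.1 hx)
    have hy' : y.1 ∈ A := (hA'mem y).1 (mem_coe.1 hy)
    rw [hφ₀A x hx', hφ₀A y hy'] at hxy
    have h1 := ψ₀.injective hxy
    have h2 : x.1 = y.1 := congrArg (fun z : {x // x ∈ A} => z.1) h1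
    exact Subtype.ext h2
  have hiff : ∀ u ∈ A', ∀ v ∈ A', Q'.Adj u v ↔ (edgeGraph E₀).Adj (φ₀ u) (φ₀ v) := by
    intro u hu v hv
    have hu' : u.1 ∈ A := (hA'mem u).1 hu
    have hv' : v.1 ∈ A := (hA'mem v).1 hv
    rw [hφ₀A u hu', hφ₀A v hv', hQ'adj]
    exact hψ₀ ⟨u.1, hu'⟩ ⟨v.1, hv'⟩
  have himg : A'.image φ₀ = univ.map ψ₀ := by
    ext x
    simp only [mem_image, mem_map, mem_univ, true_and]
    constructor
    · rintro ⟨u, hu, rfl⟩
      have hu' : u.1 ∈ A := (hA'mem u).1 hu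
      exact ⟨⟨u.1, hu'⟩, (hφ₀A u hu').symm⟩
    · rintro ⟨w, rfl⟩
      exact ⟨⟨w.1, hAD w.2⟩, (hA'mem _).2 w.2, hφ₀A _ w.2⟩
  have hbase' : (n : ℝ) ^ A'.card * p ^ (inducedSlots E₀ (A'.image φ₀)).card ≤ 1 := by
    rw [himg, hcardA]; exact hbase
  have hdens' : b * dIn Q' univ + 2 * a * A'.card
      = b * dIn Q' A' + 2 * a * Fintype.card {x // x ∈ D} := by
    rw [hdIn, hdIn, hmapU, hmapA, hcardA, Fintype.card_coe]; exact hdens
  have hbal' : ∀ S' : Finset {x // x ∈ D}, A' ⊆ S' →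
      b * dIn Q' S' + 2 * a * A'.card ≤ b * dIn Q' A' + 2 * a * S'.card := by
    intro S' hS'
    rw [hdIn, hdIn, hmapA, hcardA, ← (card_map val : (S'.map val).card = S'.card)]
    apply hbal
    · exact hmapA.symm.subset.trans (map_subset_map.2 hS')
    · exact (map_subset_map.2 (subset_univ S')).trans hmapU.subset
  have key1 := card_hom_extensions_host_le hn E₀ p hp0 hstab Q' A' hA'ne φ₀ hinj hiff hbase'
    a b hb hdens' hbal' hρ K hK hκ
  rw [Finset.filter_congr_decidable] at key1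
  constructor
  · refine le_trans (card_le_card_of_injOn id ?_ (fun x _ y _ h => h)) key1
    intro ψ hψ
    have hψ' := (mem_filter.1 (mem_coe.1 hψ)).2
    refine mem_coe.2 (mem_filter.2 ⟨mem_univ _, ?_, fun u v huv => hψ'.2 u v huv⟩)
    intro u hu
    have hu' : u.1 ∈ A := (hA'mem u).1 hu
    rw [hφ₀A u hu']
    exact hψ'.1 ⟨u.1, hu'⟩
  · intro ψ hψA hψ
    have h := hom_extension_induced E₀ p hp0 hstab Q' A' φ₀ hinj hiff hbase' a b hb hdens' hρ
      K hK hκ ψ (by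
        intro u hu
        have hu' : u.1 ∈ A := (hA'mem u).1 hu
        rw [hφ₀A u hu']
        exact hψA ⟨u.1, hu'⟩) (fun u v huv => hψ u v huv)
    refine ⟨fun u v => h.1 u v, ?_⟩
    have h2 := h.2
    rw [Fintype.card_coe] at h2
    exact h2

/-- **Theorem C in host language** (the rigid part of a pattern, layer by layer). -/
theorem card_hom_chain_le {U : Type} [Fintype U] (hn : 2 ≤ n) (E₀ : Finset (EdgeSlot n)) (p : ℝ)
    (hp0 : 0 ≤ p) (hp1 : p ≤ 1)
    (hstab : ∀ A ⊆ E₀, (((Finset.univ.filter (fun σ : Equiv.Perm (Fin n) =>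
        A.map (slotPerm σ).toEmbedding = A)).card : ℕ) : ℝ)
          ≤ 2 * (n.factorial : ℝ) * p ^ A.card)
    (R : SimpleGraph U) (A : ℕ → Finset U) (a b K : ℕ → ℕ) (hA0 : A 0 = ∅) (t : ℕ)
    (hsub : ∀ i < t, A i ⊆ A (i + 1)) (hne : ∀ i < t, A i ≠ A (i + 1))
    (hb : ∀ i < t, 0 < b i)
    (hdens : ∀ i < t, b i * dIn R (A (i + 1)) + 2 * a i * (A i).card
      = b i * dIn R (A i) + 2 * a i * (A (i + 1)).card)
    (hbal : ∀ i < t, ∀ S : Finset U, A i ⊆ S → S ⊆ A (i + 1) →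
      b i * dIn R S + 2 * a i * (A i).card ≤ b i * dIn R (A i) + 2 * a i * S.card)
    (hρ : ∀ i < t, (n : ℝ) ^ b i * p ^ a i ≤ 1)
    (hK : ∀ i < t, K i < b i) (hκ : ∀ i < t, (2 : ℝ) ^ b i * p ^ (K i + 1) < 1) :
    (univ.filter (fun ψ : {x // x ∈ A t} ↪ Fin n =>
        ∀ u v : {x // x ∈ A t}, R.Adj u.1 v.1 → (edgeGraph E₀).Adj (ψ u) (ψ v))).card
      ≤ n ^ (∑ i ∈ range t, K i) ∧
    ∀ ψ : {x // x ∈ A t} ↪ Fin n,
      (∀ u v : {x // x ∈ A t}, R.Adj u.1 v.1 → (edgeGraph E₀).Adj (ψ u) (ψ v)) →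
      (∀ u v : {x // x ∈ A t}, R.Adj u.1 v.1 ↔ (edgeGraph E₀).Adj (ψ u) (ψ v)) ∧
        (n : ℝ) ^ (A t).card * p ^ (inducedSlots E₀ (univ.map ψ)).card ≤ 1 := by
  induction t with
  | zero =>
    have hemp : IsEmpty {x // x ∈ A 0} :=
      ⟨fun x => notMem_empty _ ((Finset.ext_iff.1 hA0 x.1).1 x.2)⟩
    constructor
    · rw [range_zero, sum_empty, pow_zero]
      apply card_le_one.2
      intro ψ _ ψ' _
      apply Function.Embedding.ext
      intro x
      exact (hemp.false x).elim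
    · intro ψ _
      refine ⟨fun u => (hemp.false u).elim, ?_⟩
      have h0 : (A 0).card = 0 := by rw [hA0, card_empty]
      rw [h0, pow_zero, one_mul]
      exact pow_le_one₀ hp0 hp1
  | succ t ih =>
    obtain ⟨ihcard, ihprop⟩ := ih (fun i hi => hsub i (by omega)) (fun i hi => hne i (by omega))
      (fun i hi => hb i (by omega)) (fun i hi => hdens i (by omega))
      (fun i hi => hbal i (by omega)) (fun i hi => hρ i (by omega))
      (fun i hi => hK i (by omega)) (fun i hi => hκ i (by omega))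
    have hlt : t < t + 1 := Nat.lt_succ_self t
    -- restriction to the previous stage
    let incl : {x // x ∈ A t} ↪ {x // x ∈ A (t + 1)} :=
      ⟨fun x => ⟨x.1, hsub t hlt x.2⟩, fun x y h =>
        Subtype.ext (congrArg (fun z : {x // x ∈ A (t + 1)} => z.1) h)⟩
    let r : ({x // x ∈ A (t + 1)} ↪ Fin n) → ({x // x ∈ A t} ↪ Fin n) := fun ψ => incl.trans ψ
    have hrhom : ∀ ψ : {x // x ∈ A (t + 1)} ↪ Fin n,
        (∀ u v : {x // x ∈ A (t + 1)}, R.Adj u.1 v.1 → (edgeGraph E₀).Adj (ψ u) (ψ v)) →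
        ∀ u v : {x // x ∈ A t}, R.Adj u.1 v.1 → (edgeGraph E₀).Adj (r ψ u) (r ψ v) :=
      fun ψ hψ u v huv => hψ (incl u) (incl v) huv
    constructor
    · rw [sum_range_succ, pow_add]
      have h1 := card_le_mul_card_image_of_maps_to
        (s := univ.filter (fun ψ : {x // x ∈ A (t + 1)} ↪ Fin n =>
          ∀ u v : {x // x ∈ A (t + 1)}, R.Adj u.1 v.1 → (edgeGraph E₀).Adj (ψ u) (ψ v)))
        (t := univ.filter (fun ψ : {x // x ∈ A t} ↪ Fin n =>
          ∀ u v : {x // x ∈ A t}, R.Adj u.1 v.1 → (edgeGraph E₀).Adj (ψ u) (ψ v)))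
        (f := r)
        (fun ψ hψ => mem_filter.2 ⟨mem_univ _, hrhom ψ (mem_filter.1 hψ).2⟩) (n ^ K t)
        (by
          intro ψ₀ hψ₀
          obtain ⟨hind, hexc⟩ := ihprop ψ₀ (mem_filter.1 hψ₀).2
          have hstep := (layer_step hn E₀ p hp0 hstab R (A t) (A (t + 1)) (hsub t hlt)
            (hne t hlt) (a t) (b t) (hb t hlt) (hdens t hlt) (hbal t hlt) (hρ t hlt) (K t)
            (hK t hlt) (hκ t hlt) ψ₀ hind hexc).1
          refine le_trans (card_le_card_of_injOn id ?_ (fun x _ y _ h => h)) hstep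
          intro ψ hψ
          have hψ1 := mem_filter.1 (mem_coe.1 hψ)
          have hψ2 := (mem_filter.1 hψ1.1).2
          refine mem_coe.2 (mem_filter.2 ⟨mem_univ _, ?_, hψ2⟩)
          intro u
          rw [← hψ1.2]
          rfl)
      calc (univ.filter (fun ψ : {x // x ∈ A (t + 1)} ↪ Fin n =>
            ∀ u v : {x // x ∈ A (t + 1)}, R.Adj u.1 v.1 → (edgeGraph E₀).Adj (ψ u) (ψ v))).card
          ≤ n ^ K t * (univ.filter (fun ψ : {x // x ∈ A t} ↪ Fin n =>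
            ∀ u v : {x // x ∈ A t}, R.Adj u.1 v.1 → (edgeGraph E₀).Adj (ψ u) (ψ v))).card := h1
        _ ≤ n ^ K t * n ^ (∑ i ∈ range t, K i) := Nat.mul_le_mul_left _ ihcard
        _ = n ^ (∑ i ∈ range t, K i) * n ^ K t := mul_comm _ _
    · intro ψ hψ
      obtain ⟨hind, hexc⟩ := ihprop (r ψ) (hrhom ψ hψ)
      exact (layer_step hn E₀ p hp0 hstab R (A t) (A (t + 1)) (hsub t hlt)
        (hne t hlt) (a t) (b t) (hb t hlt) (hdens t hlt) (hbal t hlt) (hρ t hlt) (K t)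
        (hK t hlt) (hκ t hlt) (r ψ) hind hexc).2 ψ (fun u => rfl) hψ

/-- Theorem C for a pattern that is entirely rigid (`A t = univ`). -/
theorem card_hom_embeddings_chain_le {U : Type} [Fintype U] (hn : 2 ≤ n)
    (E₀ : Finset (EdgeSlot n)) (p : ℝ) (hp0 : 0 ≤ p) (hp1 : p ≤ 1)
    (hstab : ∀ A ⊆ E₀, (((Finset.univ.filter (fun σ : Equiv.Perm (Fin n) =>
        A.map (slotPerm σ).toEmbedding = A)).card : ℕ) : ℝ)
          ≤ 2 * (n.factorial : ℝ) * p ^ A.card)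
    (R : SimpleGraph U) (A : ℕ → Finset U) (a b K : ℕ → ℕ) (hA0 : A 0 = ∅) (t : ℕ)
    (hAt : A t = univ)
    (hsub : ∀ i < t, A i ⊆ A (i + 1)) (hne : ∀ i < t, A i ≠ A (i + 1))
    (hb : ∀ i < t, 0 < b i)
    (hdens : ∀ i < t, b i * dIn R (A (i + 1)) + 2 * a i * (A i).card
      = b i * dIn R (A i) + 2 * a i * (A (i + 1)).card)
    (hbal : ∀ i < t, ∀ S : Finset U, A i ⊆ S → S ⊆ A (i + 1) →
      b i * dIn R S + 2 * a i * (A i).card ≤ b i * dIn R (A i) + 2 * a i * S.card)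
    (hρ : ∀ i < t, (n : ℝ) ^ b i * p ^ a i ≤ 1)
    (hK : ∀ i < t, K i < b i) (hκ : ∀ i < t, (2 : ℝ) ^ b i * p ^ (K i + 1) < 1) :
    (univ.filter (fun φ : U ↪ Fin n =>
        ∀ u v, R.Adj u v → (edgeGraph E₀).Adj (φ u) (φ v))).card
      ≤ n ^ (∑ i ∈ range t, K i) := by
  have h := (card_hom_chain_le hn E₀ p hp0 hp1 hstab R A a b K hA0 t hsub hne hb hdens hbal hρ
    hK hκ).1
  refine le_trans (card_le_card_of_injOn
    (fun φ : U ↪ Fin n => (Function.Embedding.subtype (fun x => x ∈ A t)).trans φ) ?_ ?_) h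
  · intro φ hφ
    have hφ' := (mem_filter.1 (mem_coe.1 hφ)).2
    exact mem_coe.2 (mem_filter.2 ⟨mem_univ _, fun u v huv => hφ' u.1 v.1 huv⟩)
  · intro φ _ φ' _ h
    apply Function.Embedding.ext
    intro u
    have hu : u ∈ A t := by rw [hAt]; exact mem_univ u
    exact congrArg (fun ψ : {x // x ∈ A t} ↪ Fin n => ψ ⟨u, hu⟩) h

end Crest.Agent.Helper31.S0076
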