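import Mathlib
import Crest.Prelude.Def_CopyThreshold
import Crest.Agent.Helper31.S0076.ThmC
import Crest.Agent.Helper52.PP.Count
import Crest.Agent.Helper52.PP.Stab

/-!
# Theorem C of `notes/s0076_helper20.md` in `injCount` form (conditional infrastructure, row 55)

Nothing here is imported by any `SNNNN.lean`; this is the RIGID part only, not a route:
the free layers of a pattern are not treated.

* `num_pow_le` : `n^b p^a ≤ 1` and `1 ≤ 2^b p^K` give `n^K ≤ 2^a`  (`n^{⌊bκ⌋} ≤ 2^{ρ b} ≤ 2^a`).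
* `card_hom_embeddings_chain_le_two_pow` : Theorem C with the bound `2 ^ (∑ a i)`.
* `injCount_le_card_hom` : helper52's `injCount H T` is at most the number of injective
  homomorphisms of the graph of `T` (on `vset T`) into the host `edgeGraph (slots H f0)`.
* `injCount_le_two_pow_of_chain` : under the hypothesis `hE` of S0076, a pattern `T` all of whose
  layers are rigid (a chain as in Theorem C, with `1 ≤ 2^(b i) p^(K i)`) has
  `injCount H T ≤ 2 ^ (∑ a i)`  (with `a i` = the number of edges of layer `i`, this is `2^|T|`).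
-/

set_option autoImplicit false

namespace Crest.Agent.Helper31.S0076

open Finset Crest.CombinatoricsR.RandomGraph Crest.Agent.Helper52.PP
open scoped Classical

variable {n : ℕ}

/-- `n^b p^a ≤ 1` and `1 ≤ 2^b p^K` give `n^K ≤ 2^a`. -/
theorem num_pow_le {a b K : ℕ} {p : ℝ} (hp0 : 0 ≤ p) (hb : 0 < b)
    (hρ : (n : ℝ) ^ b * p ^ a ≤ 1) (hK : (1 : ℝ) ≤ (2 : ℝ) ^ b * p ^ K) : n ^ K ≤ 2 ^ a := by
  rcases eq_or_lt_of_le hp0 with hp | hp
  · -- `p = 0` forces `K = 0`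
    have hK0 : K = 0 := by
      by_contra h
      rw [← hp, zero_pow h, mul_zero] at hK
      linarith
    rw [hK0, pow_zero]
    exact Nat.one_le_two_pow
  · have h1 : ((n : ℝ) ^ K) ^ b * p ^ (a * K) ≤ 1 := by
      have : ((n : ℝ) ^ K) ^ b * p ^ (a * K) = ((n : ℝ) ^ b * p ^ a) ^ K := by
        rw [mul_pow, ← pow_mul, ← pow_mul, ← pow_mul, mul_comm K b]
      rw [this]
      exact pow_le_one₀ (by positivity) hρ
    have h2 : (1 : ℝ) ≤ (((2 : ℝ) ^ a) ^ b) * p ^ (a * K) := by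
      have : (((2 : ℝ) ^ a) ^ b) * p ^ (a * K) = ((2 : ℝ) ^ b * p ^ K) ^ a := by
        rw [mul_pow, ← pow_mul, ← pow_mul, ← pow_mul, mul_comm a b, mul_comm a K]
      rw [this]
      exact one_le_pow₀ hK
    have hpos : (0 : ℝ) < p ^ (a * K) := pow_pos hp _
    have h3 : ((n : ℝ) ^ K) ^ b ≤ ((2 : ℝ) ^ a) ^ b := by
      have := h1.trans h2
      exact le_of_mul_le_mul_right this hpos
    have h4 : (n : ℝ) ^ K ≤ (2 : ℝ) ^ a :=
      le_of_pow_le_pow_left₀ hb.ne' (by positivity) h3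
    exact_mod_cast h4

/-- Theorem C with the bound `2 ^ (∑ a i)` (each `K i` maximal: `1 ≤ 2^(b i) p^(K i)`). -/
theorem card_hom_embeddings_chain_le_two_pow {U : Type} [Fintype U] (hn : 2 ≤ n)
    (E₀ : Finset (EdgeSlot n)) (p : ℝ) (hp0 : 0 ≤ p) (hp1 : p ≤ 1)
    (hstab : ∀ A ⊆ E₀, (((Finset.univ.filter (fun σ : Equiv.Perm (Fin n) =>
        A.map (slotPerm σ).toEmbedding = A)).card : ℕ) : ℝ)
          ≤ 2 * (n.factorial : ℝ) * p ^ A.card)
    (R : SimpleGraph U) (A : ℕ → Finset U) (a b K : ℕ → ℕ) (hA0 : A 0 = ∅) (t : ℕ)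
    (hAt : A t = univ)
    (hsub : ∀ i < t, A i ⊆ A (i + 1)) (hne : ∀ i < t, A i ≠ A (i + 1))
    (hb : ∀ i < t, 0 < b i)
    (hdens : ∀ i < t, b i * dIn R (A (i + 1)) + 2 * a i * (A i).card
      = b i * dIn R (A i) + 2 * a i * (A (i + 1)).card)
    (hbal : ∀ i < t, ∀ S : Finset U, A i ⊆ S → S ⊆ A (i + 1) →
      b i * dIn R S + 2 * a i * (A i).card ≤ b i * dIn R (A i) + 2 * a i * S.card)
    (hρ : ∀ i < t, (n : ℝ) ^ b i * p ^ a i ≤ 1)
    (hK : ∀ i < t, K i < b i) (hκ : ∀ i < t, (2 : ℝ) ^ b i * p ^ (K i + 1) < 1)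
    (hK2 : ∀ i < t, (1 : ℝ) ≤ (2 : ℝ) ^ b i * p ^ K i) :
    (univ.filter (fun φ : U ↪ Fin n =>
        ∀ u v, R.Adj u v → (edgeGraph E₀).Adj (φ u) (φ v))).card
      ≤ 2 ^ (∑ i ∈ range t, a i) := by
  have h := card_hom_embeddings_chain_le hn E₀ p hp0 hp1 hstab R A a b K hA0 t hAt hsub hne hb
    hdens hbal hρ hK hκ
  refine h.trans ?_
  rw [← Finset.prod_pow_eq_pow_sum, ← Finset.prod_pow_eq_pow_sum]
  apply Finset.prod_le_prod
  · intro i _
    exact Nat.zero_le _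
  · intro i hi
    have hi' : i < t := Finset.mem_range.1 hi
    exact num_pow_le hp0 (hb i hi') (hρ i hi') (hK2 i hi')

/-- the graph of the pattern `T` on its vertex set -/
def patternGraph (T : Finset (EdgeSlot n)) : SimpleGraph {v // v ∈ vset T} :=
  SimpleGraph.comap Subtype.val (edgeGraph T)

theorem patternGraph_adj (T : Finset (EdgeSlot n)) (u v : {v // v ∈ vset T}) :
    (patternGraph T).Adj u v ↔ u.1 ≠ v.1 ∧ ∃ s ∈ T, s.1 = s(u.1, v.1) :=
  edgeGraph_adj T u.1 v.1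

/-- `injCount H T` is at most the number of injective homomorphisms of the graph of `T` into the
host `edgeGraph (slots H f0)`. -/
theorem injCount_le_card_hom {W : Type} [Fintype W] [DecidableEq W] (H : SimpleGraph W)
    [DecidableRel H.Adj] (f0 : W ↪ Fin n) (T : Finset (EdgeSlot n)) :
    injCount H T ≤ (univ.filter (fun φ : {v // v ∈ vset T} ↪ Fin n =>
      ∀ u v : {v // v ∈ vset T}, (patternGraph T).Adj u v →
        (edgeGraph (slots H f0)).Adj (φ u) (φ v))).card := by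
  unfold injCount
  rw [Nat.card_eq_fintype_card, Fintype.card_subtype]
  apply card_le_card_of_injOn (fun g => g.trans f0)
  · intro g hg
    have hg' := (mem_filter.1 (mem_coe.1 hg)).2
    refine mem_coe.2 (mem_filter.2 ⟨mem_univ _, ?_⟩)
    intro u v huv
    have huv' := (patternGraph_adj T u v).1 huv
    have hadj : H.Adj (g u) (g v) := hg' u v huv'.2
    have hne : f0 (g u) ≠ f0 (g v) := fun h => hadj.ne (f0.injective h)
    have hnd : ¬ (s(f0 (g u), f0 (g v)) : Sym2 (Fin n)).IsDiag := by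
      rw [Sym2.mk_isDiag_iff]; exact hne
    exact (edgeGraph_adj _ _ _).2 ⟨hne, ⟨s(f0 (g u), f0 (g v)), hnd⟩,
      (mem_slots H f0 _).2 ⟨g u, g v, hadj, rfl⟩, rfl⟩
  · intro g _ g' _ h
    apply Function.Embedding.ext
    intro x
    exact f0.injective (congrArg (fun ψ : {v // v ∈ vset T} ↪ Fin n => ψ x) h)

/-- **Rigid patterns.**  Under the hypothesis `hE` of S0076, a pattern `T` whose graph has a chain
of rigid layers as in Theorem C satisfies `injCount H T ≤ 2 ^ (∑ a i)`. -/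
theorem injCount_le_two_pow_of_chain {W : Type} [Fintype W] [DecidableEq W] (H : SimpleGraph W)
    [DecidableRel H.Adj] (hn : 2 ≤ n) (p : ℝ) (hp0 : 0 ≤ p) (hp1 : p ≤ 1)
    (hE : ∀ F : H.Subgraph, (1 : ℝ) / 2 ≤ gnpExpect n p (fun G => (G.copyCount F.coe : ℝ)))
    (f0 : W ↪ Fin n) (T : Finset (EdgeSlot n))
    (A : ℕ → Finset {v // v ∈ vset T}) (a b K : ℕ → ℕ) (hA0 : A 0 = ∅) (t : ℕ)
    (hAt : A t = univ)
    (hsub : ∀ i < t, A i ⊆ A (i + 1)) (hne : ∀ i < t, A i ≠ A (i + 1))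
    (hb : ∀ i < t, 0 < b i)
    (hdens : ∀ i < t, b i * dIn (patternGraph T) (A (i + 1)) + 2 * a i * (A i).card
      = b i * dIn (patternGraph T) (A i) + 2 * a i * (A (i + 1)).card)
    (hbal : ∀ i < t, ∀ S : Finset {v // v ∈ vset T}, A i ⊆ S → S ⊆ A (i + 1) →
      b i * dIn (patternGraph T) S + 2 * a i * (A i).card
        ≤ b i * dIn (patternGraph T) (A i) + 2 * a i * S.card)
    (hρ : ∀ i < t, (n : ℝ) ^ b i * p ^ a i ≤ 1)
    (hK : ∀ i < t, K i < b i) (hκ : ∀ i < t, (2 : ℝ) ^ b i * p ^ (K i + 1) < 1)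
    (hK2 : ∀ i < t, (1 : ℝ) ≤ (2 : ℝ) ^ b i * p ^ K i) :
    injCount H T ≤ 2 ^ (∑ i ∈ range t, a i) :=
  (injCount_le_card_hom H f0 T).trans
    (card_hom_embeddings_chain_le_two_pow hn (slots H f0) p hp0 hp1
      (fun A hA => card_stab_le H p hp0 hE f0 A hA) (patternGraph T) A a b K hA0 t hAt hsub hne
      hb hdens hbal hρ hK hκ hK2)

end Crest.Agent.Helper31.S0076
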