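import Mathlib
import Crest.Prelude.Def_CopyThreshold
import Crest.Agent.Helper31.S0076.ThmC
import Crest.Agent.Helper31.S0076.ThmCInj

/-!
# The rigid part of an arbitrary pattern (conditional infrastructure, row 55)

Nothing here is imported by any `SNNNN.lean`; this is the RIGID part only, not a route.

For a host `E₀` with the stabiliser bound and `p < 1/2`, every pattern `R` has a vertex set `A`
(its *rigid part*, obtained by repeatedly adding a minimal extension of relative density `≥ ρ`,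
i.e. `n^{|X \ A|} p^{e(X) - e(A)} ≤ 1`) such that

* the host contains at most `2 ^ e(R[A])` injective homomorphic images of `R[A]`, each of them
  induced and of excess `≥ 0`  (`Good`), and
* every proper extension `X ⊋ A` is *free*: `1 < n^{|X \ A|} p^{e(X) - e(A)}`.

`e(R[S]) = dIn R S / 2`.  This is helper20's Theorem C applied to the chain of minimal dense
extensions (each such layer is relatively balanced), see `notes/s0076_helper20.md`.
-/

set_option autoImplicit false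

namespace Crest.Agent.Helper31.S0076

open Finset Crest.CombinatoricsR.RandomGraph Crest.Agent.Helper52.PP
open Crest.Agent.Helper13.S0076 (inducedSlots)
open scoped Classical

variable {n : ℕ}

theorem dIn_mono {V : Type} [Fintype V] (G : SimpleGraph V) {X Y : Finset V} (h : X ⊆ Y) :
    dIn G X ≤ dIn G Y := by
  unfold dIn
  apply card_le_card
  intro q hq
  simp only [mem_filter, mem_product] at hq ⊢
  exact ⟨⟨h hq.1.1, h hq.1.2⟩, hq.2⟩

/-- `A` is a good (rigid) part of the pattern `R`: at most `2 ^ e(R[A])` injective homomorphisms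
of `R[A]` into the host, each of them induced and of excess `≥ 0`. -/
def Good {U : Type} [Fintype U] (E₀ : Finset (EdgeSlot n)) (p : ℝ) (R : SimpleGraph U)
    (A : Finset U) : Prop :=
  (univ.filter (fun ψ : {x // x ∈ A} ↪ Fin n =>
      ∀ u v : {x // x ∈ A}, R.Adj u.1 v.1 → (edgeGraph E₀).Adj (ψ u) (ψ v))).card
    ≤ 2 ^ (dIn R A / 2) ∧
  ∀ ψ : {x // x ∈ A} ↪ Fin n,
    (∀ u v : {x // x ∈ A}, R.Adj u.1 v.1 → (edgeGraph E₀).Adj (ψ u) (ψ v)) →
    (∀ u v : {x // x ∈ A}, R.Adj u.1 v.1 ↔ (edgeGraph E₀).Adj (ψ u) (ψ v)) ∧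
      (n : ℝ) ^ A.card * p ^ (inducedSlots E₀ (univ.map ψ)).card ≤ 1

theorem good_empty {U : Type} [Fintype U] (E₀ : Finset (EdgeSlot n)) (p : ℝ) (hp0 : 0 ≤ p)
    (hp1 : p ≤ 1) (R : SimpleGraph U) : Good E₀ p R (∅ : Finset U) := by
  have hemp : IsEmpty {x // x ∈ (∅ : Finset U)} := ⟨fun x => notMem_empty _ x.2⟩
  constructor
  · refine le_trans (card_le_one.2 ?_) Nat.one_le_two_pow
    intro ψ _ ψ' _
    apply Function.Embedding.ext
    intro x
    exact (hemp.false x).elim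
  · intro ψ _
    refine ⟨fun u => (hemp.false u).elim, ?_⟩
    rw [card_empty, pow_zero, one_mul]
    exact pow_le_one₀ hp0 hp1

/-- Adding a minimal dense extension to a good set gives a good set. -/
theorem good_step {U : Type} [Fintype U] (hn : 2 ≤ n) (E₀ : Finset (EdgeSlot n)) (p : ℝ)
    (hp0 : 0 ≤ p) (hp2 : p < 1 / 2)
    (hstab : ∀ A ⊆ E₀, (((Finset.univ.filter (fun σ : Equiv.Perm (Fin n) =>
        A.map (slotPerm σ).toEmbedding = A)).card : ℕ) : ℝ)
          ≤ 2 * (n.factorial : ℝ) * p ^ A.card)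
    (R : SimpleGraph U) (A X : Finset U) (hAX : A ⊆ X) (hne : A ≠ X)
    (hdense : (n : ℝ) ^ (X.card - A.card) * p ^ ((dIn R X - dIn R A) / 2) ≤ 1)
    (hmin : ∀ S : Finset U, A ⊆ S → S ⊆ X → S ≠ A → S ≠ X →
      1 < (n : ℝ) ^ (S.card - A.card) * p ^ ((dIn R S - dIn R A) / 2))
    (hgood : Good E₀ p R A) : Good E₀ p R X := by
  have hp1 : p ≤ 1 := by linarith
  obtain ⟨hgcard, hgprop⟩ := hgood
  -- parameters of the layer
  have hcardlt : A.card < X.card := card_lt_card (hAX.ssubset_of_ne hne)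
  obtain ⟨b, hb⟩ : ∃ b, b = X.card - A.card := ⟨_, rfl⟩
  obtain ⟨a, ha⟩ : ∃ a, a = (dIn R X - dIn R A) / 2 := ⟨_, rfl⟩
  have hbpos : 0 < b := by omega
  have hcard : X.card = A.card + b := by omega
  have h2a : dIn R X = dIn R A + 2 * a := by
    have h1 := dIn_mono R hAX
    obtain ⟨m1, hm1⟩ := two_dvd_dIn R X
    obtain ⟨m2, hm2⟩ := two_dvd_dIn R A
    omega
  rw [← hb, ← ha] at hdense
  have hdens : b * dIn R X + 2 * a * A.card = b * dIn R A + 2 * a * X.card := by
    rw [h2a, hcard]; ring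
  have hbal : ∀ S : Finset U, A ⊆ S → S ⊆ X →
      b * dIn R S + 2 * a * A.card ≤ b * dIn R A + 2 * a * S.card := by
    intro S hAS hSX
    by_cases h1 : S = A
    · rw [h1]
    by_cases h2 : S = X
    · rw [h2]; exact hdens.le
    have hlt := hmin S hAS hSX h1 h2
    obtain ⟨s, hs⟩ : ∃ s, s = S.card - A.card := ⟨_, rfl⟩
    obtain ⟨m, hm⟩ : ∃ m, m = (dIn R S - dIn R A) / 2 := ⟨_, rfl⟩
    rw [← hs, ← hm] at hlt
    have hScard : S.card = A.card + s := by
      have := card_le_card hAS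
      omega
    have h2m : dIn R S = dIn R A + 2 * m := by
      have h1 := dIn_mono R hAS
      obtain ⟨m1, hm1⟩ := two_dvd_dIn R S
      obtain ⟨m2, hm2⟩ := two_dvd_dIn R A
      omega
    have hkey : b * m ≤ a * s := by
      by_contra hcon
      push Not at hcon
      have h3 : (1 : ℝ) < ((n : ℝ) ^ s * p ^ m) ^ b := one_lt_pow₀ hlt hbpos.ne'
      have h4 : ((n : ℝ) ^ s * p ^ m) ^ b = ((n : ℝ) ^ b) ^ s * p ^ (b * m) := by
        rw [mul_pow, ← pow_mul, ← pow_mul, ← pow_mul, mul_comm s b, mul_comm m b]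
      have h5 : p ^ (b * m) ≤ p ^ (a * s) := pow_le_pow_of_le_one hp0 hp1 hcon.le
      have h6 : ((n : ℝ) ^ b) ^ s * p ^ (a * s) ≤ 1 := by
        rw [pow_mul, ← mul_pow]
        exact pow_le_one₀ (by positivity) hdense
      have h7 : ((n : ℝ) ^ b) ^ s * p ^ (b * m) ≤ ((n : ℝ) ^ b) ^ s * p ^ (a * s) :=
        mul_le_mul_of_nonneg_left h5 (by positivity)
      linarith
    rw [h2m, hScard]
    nlinarith [hkey]
  -- the exponent `K`
  have hP0 : (1 : ℝ) ≤ (2 : ℝ) ^ b * p ^ 0 := by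
    rw [pow_zero, mul_one]
    exact one_le_pow₀ (by norm_num)
  obtain ⟨K, hKdef⟩ : ∃ K, K = Nat.findGreatest (fun K => (1 : ℝ) ≤ (2 : ℝ) ^ b * p ^ K) b :=
    ⟨_, rfl⟩
  have hK2 : (1 : ℝ) ≤ (2 : ℝ) ^ b * p ^ K := by
    rw [hKdef]
    exact Nat.findGreatest_spec (P := fun K => (1 : ℝ) ≤ (2 : ℝ) ^ b * p ^ K) (Nat.zero_le b) hP0
  have hKle : K ≤ b := by rw [hKdef]; exact Nat.findGreatest_le b
  have hbb : (2 : ℝ) ^ b * p ^ b < 1 := by
    rw [← mul_pow]
    exact pow_lt_one₀ (by positivity) (by linarith) hbpos.ne'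
  have hKb : K < b := by
    rcases Nat.lt_or_ge K b with h | h
    · exact h
    · have : K = b := le_antisymm hKle h
      rw [this] at hK2
      linarith
  have hκ : (2 : ℝ) ^ b * p ^ (K + 1) < 1 := by
    by_contra hcon
    push Not at hcon
    have := Nat.le_findGreatest (P := fun K => (1 : ℝ) ≤ (2 : ℝ) ^ b * p ^ K) (by omega : K + 1 ≤ b)
      hcon
    omega
  have hKa : n ^ K ≤ 2 ^ a := num_pow_le hp0 hbpos hdense hK2
  -- restriction to `A`
  let incl : {x // x ∈ A} ↪ {x // x ∈ X} :=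
    ⟨fun x => ⟨x.1, hAX x.2⟩, fun x y h =>
      Subtype.ext (congrArg (fun z : {x // x ∈ X} => z.1) h)⟩
  let r : ({x // x ∈ X} ↪ Fin n) → ({x // x ∈ A} ↪ Fin n) := fun ψ => incl.trans ψ
  have hrhom : ∀ ψ : {x // x ∈ X} ↪ Fin n,
      (∀ u v : {x // x ∈ X}, R.Adj u.1 v.1 → (edgeGraph E₀).Adj (ψ u) (ψ v)) →
      ∀ u v : {x // x ∈ A}, R.Adj u.1 v.1 → (edgeGraph E₀).Adj (r ψ u) (r ψ v) :=
    fun ψ hψ u v huv => hψ (incl u) (incl v) huv
  constructor
  · have h1 := card_le_mul_card_image_of_maps_to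
      (s := univ.filter (fun ψ : {x // x ∈ X} ↪ Fin n =>
        ∀ u v : {x // x ∈ X}, R.Adj u.1 v.1 → (edgeGraph E₀).Adj (ψ u) (ψ v)))
      (t := univ.filter (fun ψ : {x // x ∈ A} ↪ Fin n =>
        ∀ u v : {x // x ∈ A}, R.Adj u.1 v.1 → (edgeGraph E₀).Adj (ψ u) (ψ v)))
      (f := r)
      (fun ψ hψ => mem_filter.2 ⟨mem_univ _, hrhom ψ (mem_filter.1 hψ).2⟩) (n ^ K)
      (by
        intro ψ₀ hψ₀
        obtain ⟨hind, hexc⟩ := hgprop ψ₀ (mem_filter.1 hψ₀).2
        have hstep := (layer_step hn E₀ p hp0 hstab R A X hAX hne a b hbpos hdens hbal hdense K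
          hKb hκ ψ₀ hind hexc).1
        refine le_trans (card_le_card_of_injOn id ?_ (fun x _ y _ h => h)) hstep
        intro ψ hψ
        have hψ1 := mem_filter.1 (mem_coe.1 hψ)
        have hψ2 := (mem_filter.1 hψ1.1).2
        refine mem_coe.2 (mem_filter.2 ⟨mem_univ _, ?_, hψ2⟩)
        intro u
        rw [← hψ1.2]
        rfl)
    have hexp : dIn R X / 2 = a + dIn R A / 2 := by
      obtain ⟨m2, hm2⟩ := two_dvd_dIn R A
      omega
    calc (univ.filter (fun ψ : {x // x ∈ X} ↪ Fin n =>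
          ∀ u v : {x // x ∈ X}, R.Adj u.1 v.1 → (edgeGraph E₀).Adj (ψ u) (ψ v))).card
        ≤ n ^ K * (univ.filter (fun ψ : {x // x ∈ A} ↪ Fin n =>
          ∀ u v : {x // x ∈ A}, R.Adj u.1 v.1 → (edgeGraph E₀).Adj (ψ u) (ψ v))).card := h1
      _ ≤ 2 ^ a * 2 ^ (dIn R A / 2) := Nat.mul_le_mul hKa hgcard
      _ = 2 ^ (dIn R X / 2) := by rw [hexp, pow_add]
  · intro ψ hψ
    obtain ⟨hind, hexc⟩ := hgprop (r ψ) (hrhom ψ hψ)
    exact (layer_step hn E₀ p hp0 hstab R A X hAX hne a b hbpos hdens hbal hdense K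
      hKb hκ (r ψ) hind hexc).2 ψ (fun u => rfl) hψ

/-- **The rigid part of an arbitrary pattern.**  There is a good vertex set `A` all of whose
proper extensions are free. -/
theorem exists_rigid_part {U : Type} [Fintype U] (hn : 2 ≤ n) (E₀ : Finset (EdgeSlot n)) (p : ℝ)
    (hp0 : 0 ≤ p) (hp2 : p < 1 / 2)
    (hstab : ∀ A ⊆ E₀, (((Finset.univ.filter (fun σ : Equiv.Perm (Fin n) =>
        A.map (slotPerm σ).toEmbedding = A)).card : ℕ) : ℝ)
          ≤ 2 * (n.factorial : ℝ) * p ^ A.card)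
    (R : SimpleGraph U) :
    ∃ A : Finset U, Good E₀ p R A ∧ ∀ X : Finset U, A ⊆ X → X ≠ A →
      1 < (n : ℝ) ^ (X.card - A.card) * p ^ ((dIn R X - dIn R A) / 2) := by
  have key : ∀ (m : ℕ) (A : Finset U), Fintype.card U - A.card = m → Good E₀ p R A →
      ∃ B : Finset U, Good E₀ p R B ∧ ∀ X : Finset U, B ⊆ X → X ≠ B →
        1 < (n : ℝ) ^ (X.card - B.card) * p ^ ((dIn R X - dIn R B) / 2) := by
    intro m
    induction m using Nat.strong_induction_on with
    | _ m ih =>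
    intro A hm hgood
    by_cases hfree : ∀ X : Finset U, A ⊆ X → X ≠ A →
        1 < (n : ℝ) ^ (X.card - A.card) * p ^ ((dIn R X - dIn R A) / 2)
    · exact ⟨A, hgood, hfree⟩
    · push Not at hfree
      obtain ⟨X₀, hX₀A, hX₀ne, hX₀⟩ := hfree
      have hne : ((univ : Finset (Finset U)).filter (fun X => A ⊆ X ∧ X ≠ A ∧
          (n : ℝ) ^ (X.card - A.card) * p ^ ((dIn R X - dIn R A) / 2) ≤ 1)).Nonempty :=
        ⟨X₀, mem_filter.2 ⟨mem_univ _, hX₀A, hX₀ne, hX₀⟩⟩
      obtain ⟨Xm, hXm, hmin⟩ := exists_min_image _ card hne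
      obtain ⟨-, hXmA, hXmne, hXmd⟩ := mem_filter.1 hXm
      have hgoodX : Good E₀ p R Xm := by
        refine good_step hn E₀ p hp0 hp2 hstab R A Xm hXmA (Ne.symm hXmne) hXmd ?_ hgood
        intro S hAS hSX hSA hSXm
        by_contra hcon
        push Not at hcon
        have h1 := hmin S (mem_filter.2 ⟨mem_univ _, hAS, hSA, hcon⟩)
        have h2 := card_lt_card (hSX.ssubset_of_ne hSXm)
        omega
      have h1 : A.card < Xm.card := card_lt_card (hXmA.ssubset_of_ne (Ne.symm hXmne))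
      have h2 : Xm.card ≤ Fintype.card U := card_le_univ Xm
      exact ih (Fintype.card U - Xm.card) (by omega) Xm rfl hgoodX
  have hp1 : p ≤ 1 := by linarith
  exact key _ ∅ rfl (good_empty E₀ p hp0 hp1 R)

end Crest.Agent.Helper31.S0076
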